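import Mathlib

/-!
The lemma of Chevalley for formal power series: a decreasing sequence of open subspaces whose
intersection is contained in an open subspace is eventually contained in it.
-/

noncomputable section

namespace Vale.Agent.P298.H272

open MvPowerSeries Finsupp

section chev

variable {σ k : Type*} [Field k]

variable (σ k) in
/-- the power series without terms of degree less than `a`. -/
def Tr (a : ℕ) : Submodule k (MvPowerSeries σ k) where
  carrier := {p | ∀ m : σ →₀ ℕ, degree m < a → coeff m p = 0}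
  zero_mem' := fun m _ => by rw [map_zero]
  add_mem' := fun {p q} hp hq m hm => by rw [map_add, hp m hm, hq m hm, add_zero]
  smul_mem' := fun c p hp m hm => by rw [map_smul, hp m hm, smul_zero]

theorem mem_Tr {a : ℕ} {p : MvPowerSeries σ k} :
    p ∈ Tr σ k a ↔ ∀ m : σ →₀ ℕ, degree m < a → coeff m p = 0 := Iff.rfl

theorem Tr_anti {a b : ℕ} (h : a ≤ b) : Tr σ k b ≤ Tr σ k a :=
  fun _ hp m hm => hp m (hm.trans_le h)

instance finite_quot_Tr [Finite σ] (a : ℕ) : Module.Finite k (MvPowerSeries σ k ⧸ Tr σ k a) := by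
  classical
  let T := {m : σ →₀ ℕ | degree m < a}
  have hT : T.Finite := finite_of_degree_lt a
  have : Finite T := hT
  let φ : MvPowerSeries σ k →ₗ[k] (T → k) := LinearMap.pi fun m => coeff (m : σ →₀ ℕ)
  have hk : LinearMap.ker φ = Tr σ k a := by
    ext p
    rw [LinearMap.mem_ker, mem_Tr]
    constructor
    · intro h m hm
      exact congrFun h ⟨m, hm⟩
    · intro h
      funext m
      exact h m m.2
  rw [← hk]
  exact Module.Finite.equiv (LinearMap.quotKerEquivRange φ).symm

/-- the lemma of Chevalley. -/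
theorem cheval [Finite σ] {F : ℕ → Submodule k (MvPowerSeries σ k)} (hF : Antitone F)
    (hopen : ∀ d, ∃ a, Tr σ k a ≤ F d) {G : Submodule k (MvPowerSeries σ k)}
    (hG : ∃ a, Tr σ k a ≤ G) (h : ∀ p, (∀ d, p ∈ F d) → p ∈ G) : ∃ d, F d ≤ G := by
  classical
  by_contra hcon
  push Not at hcon
  obtain ⟨a₀, ha₀⟩ := hG
  -- stabilisation modulo `Tr a`
  have hst : ∀ a : ℕ, ∃ n, ∀ d, n ≤ d →
      (F n).map (Tr σ k a).mkQ = (F d).map (Tr σ k a).mkQ := by
    intro a
    exact IsArtinian.monotone_stabilizes (R := k) (M := MvPowerSeries σ k ⧸ Tr σ k a)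
      ⟨fun d => OrderDual.toDual ((F d).map (Tr σ k a).mkQ),
        fun i j hij => Submodule.map_mono (hF hij)⟩
  choose s hs using hst
  let D : ℕ → ℕ := fun a => a + ∑ i ∈ Finset.range (a + 1), s i
  have hDs : ∀ a, s a ≤ D a := fun a => by
    have h1 : s a ≤ ∑ i ∈ Finset.range (a + 1), s i :=
      Finset.single_le_sum (f := s) (fun i _ => Nat.zero_le _)
        (Finset.mem_range.2 (Nat.lt_succ_self a))
    simp only [D]
    omega
  have hDa : ∀ a, a ≤ D a := fun a => Nat.le_add_right _ _
  have hDm : ∀ a, D a ≤ D (a + 1) := fun a => by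
    simp only [D]
    rw [Finset.sum_range_succ _ (a + 1)]
    omega
  -- one step
  have hstep : ∀ a : ℕ, ∀ g : F (D a), ∃ g' : F (D (a + 1)),
      (g' : MvPowerSeries σ k) - g ∈ Tr σ k a := by
    intro a g
    have h1 : (F (D a)).map (Tr σ k a).mkQ = (F (D (a + 1))).map (Tr σ k a).mkQ := by
      rw [← hs a (D a) (hDs a), ← hs a (D (a + 1)) ((hDs a).trans (hDm a))]
    have h2 : (Tr σ k a).mkQ g ∈ (F (D (a + 1))).map (Tr σ k a).mkQ := by
      rw [← h1]
      exact Submodule.mem_map_of_mem g.2
    obtain ⟨g', hg', he⟩ := h2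
    refine ⟨⟨g', hg'⟩, ?_⟩
    rw [Submodule.mkQ_apply, Submodule.mkQ_apply, Submodule.Quotient.eq] at he
    exact he
  choose nx hnx using hstep
  obtain ⟨g₀, hg₀, hg₀G⟩ := Set.not_subset.1 (hcon (D a₀))
  let g : (n : ℕ) → F (D (a₀ + n)) := fun n =>
    Nat.rec (motive := fun n => F (D (a₀ + n))) ⟨g₀, hg₀⟩ (fun n x => nx (a₀ + n) x) n
  have hgs : ∀ n, ((g (n + 1) : F (D (a₀ + (n + 1)))) : MvPowerSeries σ k) - g n ∈
      Tr σ k (a₀ + n) := fun n => hnx (a₀ + n) (g n)
  have hg0 : ((g 0 : F (D (a₀ + 0))) : MvPowerSeries σ k) = g₀ := rfl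
  have hdiff : ∀ n j, ((g (n + j) : F (D (a₀ + (n + j)))) : MvPowerSeries σ k) - g n ∈
      Tr σ k (a₀ + n) := by
    intro n j
    induction j with
    | zero => rw [Nat.add_zero, sub_self]; exact Submodule.zero_mem _
    | succ j ih =>
      have h1 := hgs (n + j)
      have h2 : ((g (n + (j + 1)) : F (D (a₀ + (n + (j + 1))))) : MvPowerSeries σ k) - g n =
          (((g (n + j + 1) : F (D (a₀ + (n + j + 1)))) : MvPowerSeries σ k) - g (n + j)) +
            (((g (n + j) : F (D (a₀ + (n + j)))) : MvPowerSeries σ k) - g n) := by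
        rw [sub_add_sub_cancel]; rfl
      rw [h2]
      exact Submodule.add_mem _ (Tr_anti (by omega) h1) ih
  let p : MvPowerSeries σ k := fun m => coeff m ((g (degree m + 1) :
    F (D (a₀ + (degree m + 1)))) : MvPowerSeries σ k)
  have hp : ∀ n, p - g n ∈ Tr σ k (a₀ + n) := by
    intro n m hm
    have h1 : coeff m p = coeff m ((g (degree m + 1) :
      F (D (a₀ + (degree m + 1)))) : MvPowerSeries σ k) := rfl
    rw [map_sub, h1, sub_eq_zero]
    rcases le_total (degree m + 1) n with h | h
    · obtain ⟨j, rfl⟩ := Nat.exists_eq_add_of_le h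
      have h2 := hdiff (degree m + 1) j m (by omega)
      rw [map_sub, sub_eq_zero] at h2
      exact h2.symm
    · obtain ⟨j, hj⟩ := Nat.exists_eq_add_of_le h
      have h2 := hdiff n j m hm
      rw [map_sub, sub_eq_zero] at h2
      rw [hj]
      exact h2
  have hpF : ∀ d, p ∈ F d := by
    intro d
    obtain ⟨a, ha⟩ := hopen d
    have h1 : ((g (a + d) : F (D (a₀ + (a + d)))) : MvPowerSeries σ k) ∈ F d :=
      hF (le_trans (by omega) (hDa (a₀ + (a + d)))) (g (a + d)).2
    have h2 : p - g (a + d) ∈ F d := ha (Tr_anti (by omega) (hp (a + d)))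
    have h3 := Submodule.add_mem _ h2 h1
    rwa [sub_add_cancel] at h3
  have h1 := h p hpF
  have h2 : p - g₀ ∈ G := by
    have h3 := hp 0
    rw [hg0, Nat.add_zero] at h3
    exact ha₀ h3
  have h3 := Submodule.sub_mem _ h1 h2
  rw [sub_sub_cancel] at h3
  exact hg₀G h3

/-- the lemma of Chevalley in a quotient. -/
theorem cheval_quot [Finite σ] (I : Ideal (MvPowerSeries σ k))
    {F : ℕ → Ideal (MvPowerSeries σ k ⧸ I)} (hF : Antitone F)
    (hopen : ∀ d, ∃ a, ∀ p ∈ Tr σ k a, Ideal.Quotient.mk I p ∈ F d)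
    {G : Ideal (MvPowerSeries σ k ⧸ I)}
    (hG : ∃ a, ∀ p ∈ Tr σ k a, Ideal.Quotient.mk I p ∈ G)
    (h : ∀ x, (∀ d, x ∈ F d) → x ∈ G) : ∃ d, F d ≤ G := by
  let c : Ideal (MvPowerSeries σ k ⧸ I) → Submodule k (MvPowerSeries σ k) := fun J =>
    (J.comap (Ideal.Quotient.mk I)).restrictScalars k
  have hc : ∀ J p, p ∈ c J ↔ Ideal.Quotient.mk I p ∈ J := fun J p => Iff.rfl
  obtain ⟨d, hd⟩ := cheval (F := fun d => c (F d)) (G := c G)
    (fun i j hij p hp => hF hij hp) (fun d => by
      obtain ⟨a, ha⟩ := hopen d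
      exact ⟨a, fun p hp => ha p hp⟩) (by
      obtain ⟨a, ha⟩ := hG
      exact ⟨a, fun p hp => ha p hp⟩) (fun p hp => h _ fun d => hp d)
  refine ⟨d, fun x hx => ?_⟩
  obtain ⟨p, rfl⟩ := Ideal.Quotient.mk_surjective x
  exact hd hx

/-- the series of order at least `a` are in the power of the ideal of the variables. -/
theorem Tr_le_pow [Fintype σ] (a : ℕ) : ∀ p ∈ Tr σ k a,
    p ∈ (Ideal.span (Set.range (X : σ → MvPowerSeries σ k))) ^ a := by
  classical
  induction a with
  | zero =>
    intro p _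
    rw [pow_zero, Ideal.one_eq_top]
    exact Submodule.mem_top
  | succ a ih =>
    intro p hp
    have hex : ∀ m : σ →₀ ℕ, m ≠ 0 → ∃ i, single i 1 ≤ m := by
      intro m hm
      obtain ⟨i, hi⟩ := Finsupp.ne_iff.1 hm
      refine ⟨i, ?_⟩
      rw [single_le_iff]
      rw [Finsupp.coe_zero, Pi.zero_apply] at hi
      omega
    choose ix hix using hex
    let q : σ → MvPowerSeries σ k := fun i m =>
      if h : m + single i 1 ≠ 0 then
        (if ix (m + single i 1) h = i then coeff (m + single i 1) p else 0) else 0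
    have hq : ∀ i, q i ∈ Tr σ k a := by
      intro i m hm
      show q i m = 0
      simp only [q]
      split_ifs with h1 h2
      · refine hp _ ?_
        rw [map_add, degree_single]
        omega
      · rfl
      · rfl
    have hsum : p = ∑ i, X i * q i := by
      ext m
      rw [map_sum]
      by_cases hm : m = 0
      · subst hm
        rw [hp 0 (by rw [map_zero]; omega)]
        symm
        refine Finset.sum_eq_zero fun i _ => ?_
        rw [X_def, coeff_monomial_mul, if_neg]
        rw [nonpos_iff_eq_zero, single_eq_zero]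
        exact one_ne_zero
      · rw [Finset.sum_eq_single (ix m hm)]
        · rw [X_def, coeff_monomial_mul, if_pos (hix m hm), one_mul]
          have h1 : m - single (ix m hm) 1 + single (ix m hm) 1 = m :=
            tsub_add_cancel_of_le (hix m hm)
          show _ = q (ix m hm) (m - single (ix m hm) 1)
          simp only [q]
          rw [dif_pos (by rw [h1]; exact hm), if_pos (by congr 1), h1]
        · intro i _ hi
          rw [X_def, coeff_monomial_mul]
          split_ifs with h2
          · have h1 : m - single i 1 + single i 1 = m := tsub_add_cancel_of_le h2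
            rw [one_mul]
            show q i (m - single i 1) = 0
            simp only [q]
            rw [dif_pos (by rw [h1]; exact hm), if_neg]
            intro h3
            apply hi
            rw [← h3]
            congr 1
          · rfl
        · intro h
          exact absurd (Finset.mem_univ _) h
    rw [hsum, pow_succ']
    exact Ideal.sum_mem _ fun i _ =>
      Ideal.mul_mem_mul (Ideal.subset_span ⟨i, rfl⟩) (ih _ (hq i))

/-- an ideal of finite codimension contains all series of large order. -/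
theorem Tr_le_of_finite [Fintype σ] (J : Ideal (MvPowerSeries σ k))
    [Module.Finite k (MvPowerSeries σ k ⧸ J)] : ∃ a, ∀ p ∈ Tr σ k a, p ∈ J := by
  have h1 : Ideal.span (Set.range (X : σ → MvPowerSeries σ k)) ≤ J.radical := by
    rw [Ideal.span_le]
    rintro _ ⟨i, rfl⟩
    -- the powers of `X i` stabilise modulo `J`
    obtain ⟨n, hn⟩ := IsArtinian.monotone_stabilizes (R := k) (M := MvPowerSeries σ k ⧸ J)
      ⟨fun n => OrderDual.toDual ((Ideal.span {Ideal.Quotient.mk J (X i) ^ n}).restrictScalars k),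
        fun a b hab => by
          intro x hx
          have h2 : Ideal.span {Ideal.Quotient.mk J (X i) ^ b} ≤
              Ideal.span {Ideal.Quotient.mk J (X i) ^ a} :=
            Ideal.span_singleton_le_span_singleton.2 (pow_dvd_pow _ hab)
          exact h2 hx⟩
    have h2 := hn (n + 1) (Nat.le_succ n)
    have h3 : Ideal.Quotient.mk J (X i) ^ n ∈ Ideal.span {Ideal.Quotient.mk J (X i) ^ (n + 1)} := by
      have h4 : Ideal.Quotient.mk J (X i) ^ n ∈
          (Ideal.span {Ideal.Quotient.mk J (X i) ^ n}).restrictScalars k :=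
        Ideal.mem_span_singleton_self _
      have h5 : (Ideal.span {Ideal.Quotient.mk J (X i) ^ n}).restrictScalars k =
        (Ideal.span {Ideal.Quotient.mk J (X i) ^ (n + 1)}).restrictScalars k := h2
      rw [h5] at h4
      exact h4
    obtain ⟨c, hc⟩ := Ideal.mem_span_singleton'.1 h3
    obtain ⟨r, rfl⟩ := Ideal.Quotient.mk_surjective c
    rw [← map_pow, ← map_pow, ← map_mul, Ideal.Quotient.eq] at hc
    have h6 : IsUnit (r * X i - 1 : MvPowerSeries σ k) := by
      rw [MvPowerSeries.isUnit_iff_constantCoeff]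
      simp
    refine ⟨n, ?_⟩
    have h7 : (r * X i - 1) * X i ^ n ∈ J := by
      have h8 : (r * X i - 1) * X i ^ n = r * X i ^ (n + 1) - X i ^ n := by ring
      rw [h8]
      exact hc
    obtain ⟨u, hu⟩ := h6
    have h9 := J.mul_mem_left (↑u⁻¹ : MvPowerSeries σ k) h7
    rwa [← hu, ← mul_assoc, Units.inv_mul, one_mul] at h9
  obtain ⟨a, ha⟩ := Ideal.exists_pow_le_of_le_radical_of_fg h1
    (Submodule.fg_span (Set.finite_range X))
  exact ⟨a, fun p hp => ha (Tr_le_pow a p hp)⟩

theorem exists_Tr_mem [Fintype σ] (I : Ideal (MvPowerSeries σ k))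
    (F : Ideal (MvPowerSeries σ k ⧸ I)) [Module.Finite k ((MvPowerSeries σ k ⧸ I) ⧸ F)] :
    ∃ a, ∀ p ∈ Tr σ k a, Ideal.Quotient.mk I p ∈ F := by
  let J : Ideal (MvPowerSeries σ k) := F.comap (Ideal.Quotient.mk I)
  let φ : MvPowerSeries σ k →ₗ[k] (MvPowerSeries σ k ⧸ I) ⧸ F :=
    (Ideal.Quotient.mkₐ k F).toLinearMap ∘ₗ (Ideal.Quotient.mkₐ k I).toLinearMap
  have hk : LinearMap.ker φ = J.restrictScalars k := by
    ext p
    rw [LinearMap.mem_ker]
    exact Ideal.Quotient.eq_zero_iff_mem
  have h1 : Module.Finite k (MvPowerSeries σ k ⧸ J.restrictScalars k) := by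
    rw [← hk]
    exact Module.Finite.equiv (LinearMap.quotKerEquivRange φ).symm
  have h2 : Module.Finite k (MvPowerSeries σ k ⧸ J) :=
    Module.Finite.equiv (Submodule.Quotient.restrictScalarsEquiv k J)
  exact Tr_le_of_finite J

/-- the lemma of Chevalley for ideals of finite codimension in a quotient. -/
theorem cheval_fin [Fintype σ] (I : Ideal (MvPowerSeries σ k))
    {F : ℕ → Ideal (MvPowerSeries σ k ⧸ I)} (hF : Antitone F)
    (hfin : ∀ d, Module.Finite k ((MvPowerSeries σ k ⧸ I) ⧸ F d))
    (G : Ideal (MvPowerSeries σ k ⧸ I)) [Module.Finite k ((MvPowerSeries σ k ⧸ I) ⧸ G)]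
    (h : ∀ x, (∀ d, x ∈ F d) → x ∈ G) : ∃ d, F d ≤ G :=
  cheval_quot I hF (fun d => by
    have := hfin d
    exact exists_Tr_mem I (F d)) (exists_Tr_mem I G) h

end chev

end Vale.Agent.P298.H272
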