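import Mathlib

/-!
Function fields of one variable over an algebraically closed field: places, orders,
weak approximation, degree of principal divisors (a copy of the relevant part of the
library of problem P019 in its own name space, so that the import stays short).
-/

set_option linter.all false

section

section

/-!
# Divisors and their degree
-/

namespace Vale.Agent.P298.FF

/-- the degree of a divisor. -/
noncomputable def dg {P : Type*} : (P →₀ ℤ) →+ ℤ :=
  Finsupp.liftAddHom fun _ => AddMonoidHom.id ℤ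

end Vale.Agent.P298.FF
end
end

section

section

/-!
# Function fields of one variable: definitions
-/

namespace Vale.Agent.P298.FF

open Polynomial IntermediateField

section defs

variable (k F : Type*) [Field k] [Field F] [Algebra k F]

/-- function fields of one variable over an algebraically closed field. -/
class CFF : Prop where
  ac : IsAlgClosed k
  ex : ∃ x : F, Transcendental k x ∧ FiniteDimensional k⟮x⟯ F

/-- the places of `F` over `k`. -/
def Plk : Type _ :=
  {O : ValuationSubring F // (∀ a : k, algebraMap k F a ∈ O) ∧ O ≠ ⊤}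

end defs

/-- `f` is the normalised additive valuation of `O` (with `f 0 = 0`). -/
structure IsOrd {F : Type*} [Field F] (O : ValuationSubring F) (f : F → ℤ) : Prop where
  zero : f 0 = 0
  mul : ∀ x y, x ≠ 0 → y ≠ 0 → f (x * y) = f x + f y
  add : ∀ x y, x ≠ 0 → y ≠ 0 → x + y ≠ 0 → min (f x) (f y) ≤ f (x + y)
  mem : ∀ x, x ∈ O ↔ x = 0 ∨ 0 ≤ f x
  one : ∃ π, f π = 1

end Vale.Agent.P298.FF
end
end

section

section

/-!
# Function fields of one variable: field theory
-/

namespace Vale.Agent.P298.FF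

open Polynomial IntermediateField

section

variable {k F : Type*} [Field k] [Field F] [Algebra k F]

theorem adjoin_inv_eq (x : F) : k⟮x⁻¹⟯ = k⟮x⟯ := by
  refine le_antisymm ?_ ?_
  · exact adjoin_simple_le_iff.2 (inv_mem (mem_adjoin_simple_self k x))
  · refine adjoin_simple_le_iff.2 ?_
    have h := inv_mem (mem_adjoin_simple_self k x⁻¹)
    rwa [inv_inv] at h

theorem adjoin_sub_eq (x : F) (c : k) : k⟮x - algebraMap k F c⟯ = k⟮x⟯ := by
  refine le_antisymm ?_ ?_
  · exact adjoin_simple_le_iff.2 (sub_mem (mem_adjoin_simple_self k x)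
      (IntermediateField.algebraMap_mem _ c))
  · refine adjoin_simple_le_iff.2 ?_
    have h := add_mem (mem_adjoin_simple_self k (x - algebraMap k F c))
      (IntermediateField.algebraMap_mem k⟮x - algebraMap k F c⟯ c)
    rwa [sub_add_cancel] at h

theorem nc_inv {x : F} (hx : ∀ a : k, x ≠ algebraMap k F a) (a : k) : x⁻¹ ≠ algebraMap k F a := by
  intro h
  apply hx a⁻¹
  rw [map_inv₀, ← h, inv_inv]

theorem nc_sub {x : F} (hx : ∀ a : k, x ≠ algebraMap k F a) (c a : k) :
    x - algebraMap k F c ≠ algebraMap k F a := by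
  intro h
  apply hx (a + c)
  rw [map_add, ← h, sub_add_cancel]

theorem CFld_essFin {t : F} (h : FiniteDimensional k⟮t⟯ F) : Algebra.EssFiniteType k F := by
  have h1 : Algebra.EssFiniteType k k⟮t⟯ :=
    essFiniteType_iff.2 ⟨{t}, by simp⟩
  have h2 : Algebra.EssFiniteType k⟮t⟯ F := inferInstance
  exact Algebra.EssFiniteType.comp k k⟮t⟯ F

theorem CFld_basis {t : F} (ht : Transcendental k t) (h : FiniteDimensional k⟮t⟯ F) :
    IsTranscendenceBasis k (fun _ : Unit => t) := by
  have hai : AlgebraicIndependent k (fun _ : Unit => t) := algebraicIndependent_unique_type_iff.2 ht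
  rw [isTranscendenceBasis_iff_algebraicIndependent_isAlgebraic]
  refine ⟨hai, ?_⟩
  have h3 : Algebra.IsAlgebraic k⟮t⟯ F := inferInstance
  have h4 : Set.range (fun _ : Unit => t) = {t} := by ext; simp [eq_comm]
  rw [h4]
  exact (IntermediateField.isAlgebraic_adjoin_iff_top).1 h3

end

theorem CFld_finite {k F : Type*} [Field k] [Field F] [Algebra k F] [CFF k F] {x : F}
    (hx : Transcendental k x) : FiniteDimensional k⟮x⟯ F := by
  obtain ⟨t, ht, hfd⟩ := CFF.ex (k := k) (F := F)
  have hb := CFld_basis ht hfd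
  have htr : Cardinal.lift (Cardinal.mk Unit) = Cardinal.lift (Algebra.trdeg k F) :=
    hb.lift_cardinalMk_eq_trdeg
  have hai : AlgebraicIndependent k (fun _ : Unit => x) := algebraicIndependent_unique_type_iff.2 hx
  have hbx : IsTranscendenceBasis k (fun _ : Unit => x) :=
    hai.isTranscendenceBasis_of_lift_trdeg_le_of_finite htr.ge
  have h4 : Set.range (fun _ : Unit => x) = {x} := by ext; simp [eq_comm]
  have h5 := hbx.isAlgebraic_field
  rw [h4] at h5
  have h6 : Algebra.EssFiniteType k F := CFld_essFin hfd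
  have h7 : Algebra.EssFiniteType k⟮x⟯ F := Algebra.EssFiniteType.of_comp k k⟮x⟯ F
  exact Algebra.finite_of_essFiniteType_of_isAlgebraic

/-- existence of separating elements. -/
theorem exists_sep (k F : Type*) [Field k] [Field F] [Algebra k F] [CFF k F] :
    ∃ x : F, Transcendental k x ∧ FiniteDimensional k⟮x⟯ F ∧ Algebra.IsSeparable k⟮x⟯ F := by
  obtain ⟨t, ht, hfd⟩ := CFF.ex (k := k) (F := F)
  have : Algebra.EssFiniteType k F := CFld_essFin hfd
  have : IsAlgClosed k := CFF.ac (k := k) (F := F)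
  obtain ⟨s, hs, hsep⟩ := exists_isTranscendenceBasis_and_isSeparable_of_perfectField k F
  have hb := CFld_basis ht hfd
  have hcard : Cardinal.lift (Cardinal.mk Unit) = Cardinal.lift (Cardinal.mk s) :=
    hb.lift_cardinalMk_eq hs
  have h1 : s.card = 1 := by
    simpa using hcard.symm
  obtain ⟨x, rfl⟩ := Finset.card_eq_one.1 h1
  have hx : Transcendental k x := hs.1.transcendental ⟨x, by simp⟩
  refine ⟨x, hx, CFld_finite hx, ?_⟩
  rw [Finset.coe_singleton] at hsep
  exact hsep

/-- every non-constant element is transcendental with finite degree. -/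
theorem finite_of_notMem {k F : Type*} [Field k] [Field F] [Algebra k F] [CFF k F] {x : F}
    (hx : ∀ a : k, x ≠ algebraMap k F a) :
    Transcendental k x ∧ FiniteDimensional k⟮x⟯ F := by
  have : IsAlgClosed k := CFF.ac (k := k) (F := F)
  have htr : Transcendental k x := by
    intro halg
    have hint : IsIntegral k x := halg.isIntegral
    obtain ⟨a, ha⟩ := minpoly.mem_range_of_degree_eq_one k x
      (IsAlgClosed.degree_eq_one_of_irreducible k (minpoly.irreducible hint))
    exact hx a ha.symm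
  exact ⟨htr, CFld_finite htr⟩

end Vale.Agent.P298.FF
end
end

section

section

/-!
# Linear independence over `k(x)` and polynomial relations
-/

namespace Vale.Agent.P298.FF

open Polynomial IntermediateField

section

variable {k F : Type*} [Field k] [Field F] [Algebra k F]

private theorem exists_frac {x c : F} (hc : c ∈ k⟮x⟯) :
    ∃ f g : k[X], aeval x g ≠ 0 ∧ c * aeval x g = aeval x f := by
  obtain ⟨f, g, h⟩ := (mem_adjoin_simple_iff k c).1 hc
  by_cases hg : aeval x g = 0
  · refine ⟨0, 1, by simp, ?_⟩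
    rw [h, hg]
    simp
  · exact ⟨f, g, hg, by rw [h, div_mul_cancel₀ _ hg]⟩

private theorem exists_rel' {x : F} {ι : Type*} [Fintype ι] {y : ι → F}
    (h : ¬ LinearIndependent k⟮x⟯ y) :
    ∃ φ : ι → k[X], (∃ i, φ i ≠ 0) ∧ ∑ i, aeval x (φ i) * y i = 0 := by
  classical
  obtain ⟨c, hc, i0, hi0⟩ := Fintype.not_linearIndependent_iff.1 h
  choose f g hg hfg using fun i => exists_frac (k := k) (x := x) (c i).2
  have key : ∀ i, aeval x (f i * ∏ j ∈ Finset.univ.erase i, g j)
      = (c i : F) * ∏ j, aeval x (g j) := by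
    intro i
    rw [map_mul, ← hfg i, map_prod, mul_assoc,
      Finset.mul_prod_erase Finset.univ (fun j => aeval x (g j)) (Finset.mem_univ i)]
  refine ⟨fun i => f i * ∏ j ∈ Finset.univ.erase i, g j, ⟨i0, fun h0 => ?_⟩, ?_⟩
  · have h1 := key i0
    simp only at h0
    rw [h0, map_zero] at h1
    rcases mul_eq_zero.1 h1.symm with h2 | h2
    · exact hi0 (Subtype.ext h2)
    · exact Finset.prod_ne_zero_iff.2 (fun j _ => hg j) h2
  · have h1 : ∀ i, aeval x (f i * ∏ j ∈ Finset.univ.erase i, g j) * y i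
        = (∏ j, aeval x (g j)) * (c i • y i) := by
      intro i
      rw [key i]
      change _ = _ * ((c i : F) * y i)
      ring
    simp only [h1]
    rw [← Finset.mul_sum, hc, mul_zero]

/-- a linear relation over `k(x)` can be normalised. -/
theorem exists_rel {x : F} (hx : Transcendental k x) {ι : Type*} [Fintype ι] {y : ι → F}
    (h : ¬ LinearIndependent k⟮x⟯ y) :
    ∃ φ : ι → k[X], (∃ i, (φ i).coeff 0 ≠ 0) ∧ ∑ i, aeval x (φ i) * y i = 0 := by
  classical
  have hx0 : x ≠ 0 := fun h0 => by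
    rw [h0] at hx
    exact hx (isAlgebraic_zero)
  have hex : ∃ n, ∃ φ : ι → k[X], (∃ i, φ i ≠ 0) ∧ ∑ i, aeval x (φ i) * y i = 0 ∧
      ∑ i, (φ i).natDegree = n := by
    obtain ⟨φ, h1, h2⟩ := exists_rel' h
    exact ⟨_, φ, h1, h2, rfl⟩
  obtain ⟨φ, ⟨i0, hi0⟩, h2, h3⟩ := Nat.find_spec hex
  refine ⟨φ, ?_, h2⟩
  by_contra hcon
  push Not at hcon
  have e : ∀ i, φ i = (φ i).divX * X := fun i => by
    conv_lhs => rw [← divX_mul_X_add (φ i), hcon i, C_0, add_zero]
  have hne : (φ i0).divX ≠ 0 := fun h0 => hi0 (by rw [e i0, h0, zero_mul])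
  have hdeg : (φ i0).natDegree = (φ i0).divX.natDegree + 1 := by
    conv_lhs => rw [e i0]
    exact natDegree_mul_X hne
  have hlt : ∑ i, (φ i).divX.natDegree < Nat.find hex := by
    rw [← h3]
    refine Finset.sum_lt_sum (fun i _ => natDegree_divX_le) ⟨i0, Finset.mem_univ _, ?_⟩
    omega
  refine Nat.find_min hex hlt ⟨fun i => (φ i).divX, ⟨i0, hne⟩, ?_, rfl⟩
  have h4 : x * ∑ i, aeval x ((φ i).divX) * y i = 0 := by
    rw [← h2, Finset.mul_sum]
    refine Finset.sum_congr rfl fun i _ => ?_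
    conv_rhs => rw [e i, map_mul, aeval_X]
    ring
  exact (mul_eq_zero.1 h4).resolve_left hx0

/-- a family independent over `k(x)` gives a family independent over `k`. -/
theorem indep_pow_mul {x : F} (hx : Transcendental k x) {ι : Type*} {y : ι → F}
    (h : LinearIndependent k⟮x⟯ y) :
    LinearIndependent k (fun p : ι × ℕ => x ^ p.2 * y p.1) := by
  have h1 : LinearIndependent k (fun j : ℕ => (AdjoinSimple.gen k x) ^ j) := by
    have h2 := (Polynomial.basisMonomials k).linearIndependent.map'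
      (aeval (AdjoinSimple.gen k x)).toLinearMap (by
        rw [LinearMap.ker_eq_bot]
        intro p q hpq
        have h3 : aeval x p = aeval x q := by
          have h4 := congrArg (algebraMap k⟮x⟯ F) hpq
          simpa only [AlgHom.toLinearMap_apply, ← aeval_algebraMap_apply,
            AdjoinSimple.algebraMap_gen] using h4
        exact transcendental_iff_injective.1 hx h3)
    have h5 : (fun j : ℕ => (AdjoinSimple.gen k x) ^ j)
        = ⇑(aeval (AdjoinSimple.gen k x)).toLinearMap ∘ ⇑(basisMonomials k) := by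
      funext j
      simp [coe_basisMonomials]
    rw [h5]
    exact h2
  have h5 := linearIndependent_smul h1 h
  have h6 := h5.comp Prod.swap Prod.swap_injective
  exact h6

/-- conversely, polynomial independence gives independence over `k(x)`. -/
theorem indep_of_poly {x : F} (hx : Transcendental k x) {ι : Type*} [Fintype ι] {y : ι → F}
    (h : ∀ φ : ι → k[X], ∑ i, aeval x (φ i) * y i = 0 → ∀ i, φ i = 0) :
    LinearIndependent k⟮x⟯ y := by
  by_contra hn
  obtain ⟨φ, ⟨i, hi⟩, h0⟩ := exists_rel hx hn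
  exact hi (by rw [h φ h0 i, coeff_zero])

end

end Vale.Agent.P298.FF
end
end

section

section

/-!
# The places of a function field are discrete, with residue field `k`
-/

namespace Vale.Agent.P298.FF

set_option linter.unusedSectionVars false

open Polynomial IntermediateField

namespace AuxCVal

section

variable {K : Type*} [Field K] {O : ValuationSubring K} {f : K → ℤ}

theorem ord_one (hf : IsOrd O f) : f 1 = 0 := by
  have h := hf.mul 1 1 one_ne_zero one_ne_zero
  rw [mul_one] at h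
  omega

theorem ord_inv (hf : IsOrd O f) {x : K} (hx : x ≠ 0) : f x⁻¹ = - f x := by
  have h := hf.mul x x⁻¹ hx (inv_ne_zero hx)
  rw [mul_inv_cancel₀ hx, ord_one hf] at h
  omega

theorem ord_pow (hf : IsOrd O f) {x : K} (hx : x ≠ 0) (n : ℕ) : f (x ^ n) = n * f x := by
  induction n with
  | zero => rw [pow_zero, ord_one hf]; simp
  | succ n ih =>
    rw [pow_succ, hf.mul _ _ (pow_ne_zero _ hx) hx, ih]
    push_cast
    ring

theorem ord_zpow (hf : IsOrd O f) {x : K} (hx : x ≠ 0) (n : ℤ) : f (x ^ n) = n * f x := by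
  cases n with
  | ofNat n =>
    rw [Int.ofNat_eq_natCast, zpow_natCast]; exact ord_pow hf hx n
  | negSucc n =>
    rw [zpow_negSucc, ord_inv hf (pow_ne_zero _ hx), ord_pow hf hx, Int.negSucc_eq]
    push_cast
    ring

end

section

variable {k F : Type*} [Field k] [Field F] [Algebra k F] [CFF k F]

theorem v_cst (P : Plk k F) {c : k} (hc : c ≠ 0) : P.1.valuation (algebraMap k F c) = 1 := by
  have h1 := (P.1.valuation_le_one_iff _).2 (P.2.1 c)
  have h2 := (P.1.valuation_le_one_iff _).2 (P.2.1 c⁻¹)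
  have hc' : algebraMap k F c ≠ 0 := by rwa [Ne, map_eq_zero]
  have hpos : 0 < P.1.valuation (algebraMap k F c) := by
    rw [zero_lt_iff]; exact (Valuation.ne_zero_iff _).2 hc'
  rw [map_inv₀, map_inv₀, inv_le_one₀ hpos] at h2
  exact le_antisymm h1 h2

theorem nc_of_lt (P : Plk k F) {x : F} (hx0 : x ≠ 0) (hx : P.1.valuation x < 1) (a : k) :
    x ≠ algebraMap k F a := by
  rintro rfl
  have ha : a ≠ 0 := by
    rintro rfl
    exact hx0 (map_zero _)
  rw [v_cst P ha] at hx
  exact lt_irrefl _ hx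

theorem v_aeval_le (P : Plk k F) {x : F} (hx : P.1.valuation x ≤ 1) (φ : k[X]) :
    P.1.valuation (aeval x φ) ≤ 1 := by
  have hxm : x ∈ P.1 := (P.1.valuation_le_one_iff _).1 hx
  rw [P.1.valuation_le_one_iff]
  induction φ using Polynomial.induction_on' with
  | add p q hp hq => rw [map_add]; exact add_mem hp hq
  | monomial n a =>
    rw [aeval_monomial]
    exact mul_mem (P.2.1 a) (pow_mem hxm n)

theorem aeval_eq (x : F) (φ : k[X]) :
    aeval x φ = aeval x φ.divX * x + algebraMap k F (φ.coeff 0) := by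
  conv_lhs => rw [← divX_mul_X_add φ]
  rw [map_add, map_mul, aeval_X, aeval_C]

theorem v_aeval_zero (P : Plk k F) {x : F} (hx : P.1.valuation x ≤ 1) {φ : k[X]}
    (h : φ.coeff 0 = 0) : P.1.valuation (aeval x φ) ≤ P.1.valuation x := by
  rw [aeval_eq, h, map_zero, add_zero, map_mul]
  exact mul_le_of_le_one_left' (v_aeval_le P hx _)

theorem v_aeval_one (P : Plk k F) {x : F} (hx : P.1.valuation x < 1) {φ : k[X]}
    (h : φ.coeff 0 ≠ 0) : P.1.valuation (aeval x φ) = 1 := by
  rw [aeval_eq]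
  have h1 : P.1.valuation (aeval x φ.divX * x) < 1 := by
    rw [map_mul]
    exact (mul_le_of_le_one_left' (v_aeval_le P hx.le _)).trans_lt hx
  have h2 := v_cst P h
  rw [Valuation.map_add_eq_of_lt_right _ (by rw [h2]; exact h1), h2]

/-- the valuation ring is not everything. -/
theorem exists_small (P : Plk k F) : ∃ x : F, x ≠ 0 ∧ P.1.valuation x < 1 := by
  have h1 : ∃ w : F, w ∉ P.1 := by
    by_contra hcon
    push Not at hcon
    exact P.2.2 (eq_top_iff.2 fun w _ => hcon w)
  obtain ⟨w, hw⟩ := h1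
  have hw0 : w ≠ 0 := by
    rintro rfl
    exact hw (zero_mem _)
  refine ⟨w⁻¹, inv_ne_zero hw0, ?_⟩
  rw [← P.1.valuation_le_one_iff, not_le] at hw
  rw [map_inv₀]
  exact inv_lt_one_of_one_lt₀ hw

end

end AuxCVal

open AuxCVal

theorem IsOrd.unique {F : Type*} [Field F] {O : ValuationSubring F} {f g : F → ℤ}
    (hf : IsOrd O f) (hg : IsOrd O g) : f = g := by
  have h0 : ∀ w : F, w ≠ 0 → (0 ≤ f w ↔ 0 ≤ g w) := by
    intro w hw
    have h1 := hf.mem w
    have h2 := hg.mem w
    constructor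
    · intro h
      exact (h2.1 (h1.2 (Or.inr h))).resolve_left hw
    · intro h
      exact (h1.1 (h2.2 (Or.inr h))).resolve_left hw
  have h1 : ∀ w : F, w ≠ 0 → f w = 0 → g w = 0 := by
    intro w hw h
    have h2 := (h0 w hw).1 h.ge
    have h3 := (h0 w⁻¹ (inv_ne_zero hw)).1 (by rw [ord_inv hf hw]; omega)
    rw [ord_inv hg hw] at h3
    omega
  obtain ⟨π, hπ⟩ := hf.one
  obtain ⟨π', hπ'⟩ := hg.one
  have hπ0 : π ≠ 0 := by rintro rfl; rw [hf.zero] at hπ; exact zero_ne_one hπ
  have hπ0' : π' ≠ 0 := by rintro rfl; rw [hg.zero] at hπ'; exact zero_ne_one hπ'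
  have h2 : ∀ z : F, z ≠ 0 → g z = f z * g π := by
    intro z hz
    have hp : π ^ f z ≠ 0 := zpow_ne_zero _ hπ0
    have h3 := h1 (z * (π ^ f z)⁻¹) (mul_ne_zero hz (inv_ne_zero hp)) (by
      rw [hf.mul _ _ hz (inv_ne_zero hp), ord_inv hf hp, ord_zpow hf hπ0, hπ]
      ring)
    rw [hg.mul _ _ hz (inv_ne_zero hp), ord_inv hg hp, ord_zpow hg hπ0] at h3
    linarith
  have h4 : 0 ≤ g π := (h0 π hπ0).1 (by rw [hπ]; exact zero_le_one)
  have h5 := h2 π' hπ0'
  rw [hπ'] at h5
  have h6 : g π = 1 := by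
    rcases Int.eq_one_or_neg_one_of_mul_eq_one' h5.symm with h | h
    · exact h.2
    · omega
  funext z
  by_cases hz : z = 0
  · rw [hz, hf.zero, hg.zero]
  · rw [h2 z hz, h6, mul_one]

section

variable {k F : Type*} [Field k] [Field F] [Algebra k F] [CFF k F]

/-- elements whose values are close to each other are independent over `k(x)`. -/
theorem indep_of_val (P : Plk k F) {x : F} (hx0 : x ≠ 0) (hx : P.1.valuation x < 1)
    {ι : Type*} [Fintype ι] {y : ι → F} (hy : ∀ i, y i ≠ 0)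
    (hd : ∀ i j, i ≠ j → P.1.valuation (y i) ≠ P.1.valuation (y j))
    (hlt : ∀ i j, P.1.valuation x * P.1.valuation (y i) < P.1.valuation (y j)) :
    LinearIndependent k⟮x⟯ y := by
  classical
  by_contra hdep
  obtain ⟨htr, -⟩ := finite_of_notMem (nc_of_lt P hx0 hx)
  obtain ⟨φ, ⟨i0, hi0⟩, hsum⟩ := exists_rel htr hdep
  obtain ⟨j, hj, hmax⟩ := Finset.exists_max_image
    (Finset.univ.filter fun i => (φ i).coeff 0 ≠ 0) (fun i => P.1.valuation (y i))
    ⟨i0, by simpa using hi0⟩
  have hj' : (φ j).coeff 0 ≠ 0 := by simpa using hj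
  have hyj : P.1.valuation (y j) ≠ 0 := (Valuation.ne_zero_iff _).2 (hy j)
  have hvj : P.1.valuation (aeval x (φ j) * y j) = P.1.valuation (y j) := by
    rw [map_mul, v_aeval_one P hx hj', one_mul]
  have hrest : P.1.valuation (∑ i ∈ Finset.univ.erase j, aeval x (φ i) * y i) <
      P.1.valuation (y j) := by
    apply Valuation.map_sum_lt _ hyj
    intro i hi
    have hij : i ≠ j := Finset.ne_of_mem_erase hi
    rw [map_mul]
    by_cases h : (φ i).coeff 0 = 0
    · exact (mul_le_mul_left (v_aeval_zero P hx.le h) _).trans_lt (hlt i j)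
    · rw [v_aeval_one P hx h, one_mul]
      exact lt_of_le_of_ne (hmax i (by simpa using h)) (hd i j hij)
  rw [← Finset.add_sum_erase _ _ (Finset.mem_univ j)] at hsum
  rw [eq_neg_of_add_eq_zero_left hsum, Valuation.map_neg] at hvj
  rw [hvj] at hrest
  exact lt_irrefl _ hrest

theorem AuxCVal.exists_cst_of_poly (P : Plk k F) {z : F} (hz : z ∈ P.1) (n : ℕ) :
    ∀ f : k[X], f.natDegree ≤ n → f ≠ 0 → P.1.valuation (aeval z f) < 1 →
      ∃ c : k, P.1.valuation (z - algebraMap k F c) < 1 := by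
  have : IsAlgClosed k := CFF.ac F
  induction n with
  | zero =>
    intro f hd hf hv
    exfalso
    rw [eq_C_of_natDegree_le_zero hd, aeval_C] at hv
    have h0 : f.coeff 0 ≠ 0 := by
      intro h
      apply hf
      rw [eq_C_of_natDegree_le_zero hd, h, C_0]
    rw [v_cst P h0] at hv
    exact lt_irrefl _ hv
  | succ n ih =>
    intro f hd hf hv
    by_cases h0 : f.natDegree = 0
    · exact ih f (by omega) hf hv
    obtain ⟨c, hc⟩ := IsAlgClosed.exists_root f (by
      intro h
      exact h0 (natDegree_eq_of_degree_eq_some h))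
    obtain ⟨g, hg⟩ := dvd_iff_isRoot.2 hc
    have hg0 : g ≠ 0 := by
      rintro rfl
      exact hf (by rw [hg, mul_zero])
    have hdg : f.natDegree = 1 + g.natDegree := by
      rw [hg, natDegree_mul (X_sub_C_ne_zero c) hg0, natDegree_X_sub_C]
    rw [hg, map_mul, map_sub, aeval_X, aeval_C, map_mul] at hv
    have h1 : P.1.valuation (z - algebraMap k F c) ≤ 1 :=
      (P.1.valuation_le_one_iff _).2 (sub_mem hz (P.2.1 c))
    rcases h1.lt_or_eq with h2 | h2
    · exact ⟨c, h2⟩
    · rw [h2, one_mul] at hv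
      exact ih g (by omega) hg0 hv

theorem exists_cst' (P : Plk k F) {z : F} (hz : z ∈ P.1) :
    ∃ c : k, P.1.valuation (z - algebraMap k F c) < 1 := by
  classical
  obtain ⟨x, hx0, hx⟩ := exists_small P
  obtain ⟨htr, hfd⟩ := finite_of_notMem (nc_of_lt P hx0 hx)
  have hdep : ¬ LinearIndependent k⟮x⟯
      (fun i : Fin (Module.finrank k⟮x⟯ F + 1) => z ^ (i : ℕ)) := by
    intro h
    have h1 := h.fintype_card_le_finrank
    rw [Fintype.card_fin] at h1
    omega
  obtain ⟨φ, ⟨i0, hi0⟩, hsum⟩ := exists_rel htr hdep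
  have hz1 : P.1.valuation z ≤ 1 := (P.1.valuation_le_one_iff _).2 hz
  apply exists_cst_of_poly P hz _ (∑ i, C ((φ i).coeff 0) * X ^ (i : ℕ)) le_rfl
  · intro h
    have h1 := congrArg (fun p : k[X] => p.coeff (i0 : ℕ)) h
    simp only [finsetSum_coeff, coeff_C_mul, coeff_X_pow, coeff_zero] at h1
    rw [Finset.sum_eq_single i0] at h1
    · rw [if_pos rfl, mul_one] at h1
      exact hi0 h1
    · intro j _ hj
      rw [if_neg (fun h' => hj (Fin.ext h'.symm)), mul_zero]
    · intro h'
      exact absurd (Finset.mem_univ _) h'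
  · have h1 : aeval z (∑ i, C ((φ i).coeff 0) * X ^ (i : ℕ)) =
        -∑ i, aeval x (φ i).divX * x * z ^ (i : ℕ) := by
      rw [eq_neg_iff_add_eq_zero, map_sum, ← Finset.sum_add_distrib, ← hsum]
      refine Finset.sum_congr rfl fun i _ => ?_
      rw [map_mul, map_pow, aeval_X, aeval_C, aeval_eq x (φ i)]
      ring
    rw [h1, Valuation.map_neg]
    apply Valuation.map_sum_lt _ one_ne_zero
    intro i _
    rw [map_mul, map_mul, map_pow]
    calc P.1.valuation (aeval x (φ i).divX) * P.1.valuation x * P.1.valuation z ^ (i : ℕ)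
        ≤ 1 * P.1.valuation x * 1 :=
          mul_le_mul' (mul_le_mul' (v_aeval_le P hx.le _) le_rfl) (pow_le_one' hz1 _)
      _ = P.1.valuation x := by rw [one_mul, mul_one]
      _ < 1 := hx

theorem AuxCVal.exists_unif (P : Plk k F) : ∃ t : F, t ≠ 0 ∧ P.1.valuation t < 1 ∧
    ∀ z, P.1.valuation z < 1 → P.1.valuation z ≤ P.1.valuation t := by
  obtain ⟨x, hx0, hx⟩ := exists_small P
  obtain ⟨htr, hfd⟩ := finite_of_notMem (nc_of_lt P hx0 hx)
  by_contra hcon
  push Not at hcon
  have hstep : ∀ t : {t : F // t ≠ 0 ∧ P.1.valuation t < 1},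
      ∃ s : {t : F // t ≠ 0 ∧ P.1.valuation t < 1}, P.1.valuation t.1 < P.1.valuation s.1 := by
    rintro ⟨t, ht0, ht⟩
    obtain ⟨z, hz, hz'⟩ := hcon t ht0 ht
    have hz0 : z ≠ 0 := by
      rintro rfl
      rw [map_zero] at hz'
      exact not_lt_zero hz'
    exact ⟨⟨z, hz0, hz⟩, hz'⟩
  choose nx hnx using hstep
  let y : ℕ → {t : F // t ≠ 0 ∧ P.1.valuation t < 1} := fun n => nx^[n] ⟨x, hx0, hx⟩
  have hy : StrictMono fun n => P.1.valuation (y n).1 := by
    apply strictMono_nat_of_lt_succ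
    intro n
    have h1 : y (n + 1) = nx (y n) := Function.iterate_succ_apply' nx n _
    change P.1.valuation (y n).1 < P.1.valuation (y (n + 1)).1
    rw [h1]
    exact hnx _
  have hvx : 0 < P.1.valuation x := by
    rw [zero_lt_iff]; exact (Valuation.ne_zero_iff _).2 hx0
  have h2 := (indep_of_val P hx0 hx (y := fun i : Fin (Module.finrank k⟮x⟯ F + 1) => (y i).1)
    (fun i => (y i).2.1) (fun i j hij h => hij (Fin.ext (hy.injective h)))
    (fun i j => by
      have h3 : P.1.valuation x ≤ P.1.valuation (y j).1 := hy.monotone (Nat.zero_le _)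
      exact (mul_lt_of_lt_one_right hvx (y i).2.2).trans_le h3)).fintype_card_le_finrank
  rw [Fintype.card_fin] at h2
  omega

theorem AuxCVal.exists_pow (P : Plk k F) {t : F} (ht0 : t ≠ 0) (ht : P.1.valuation t < 1)
    (hmax : ∀ z, P.1.valuation z < 1 → P.1.valuation z ≤ P.1.valuation t) {z : F} (hz0 : z ≠ 0)
    (hz : P.1.valuation z ≤ 1) : ∃ m : ℕ, P.1.valuation z = P.1.valuation t ^ m := by
  classical
  rcases hz.lt_or_eq with hz1 | hz1
  swap
  · exact ⟨0, by rw [hz1, pow_zero]⟩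
  have hvt : 0 < P.1.valuation t := by
    rw [zero_lt_iff]; exact (Valuation.ne_zero_iff _).2 ht0
  have hvz : 0 < P.1.valuation z := by
    rw [zero_lt_iff]; exact (Valuation.ne_zero_iff _).2 hz0
  obtain ⟨htr, hfd⟩ := finite_of_notMem (nc_of_lt P hz0 hz1)
  have hanti : StrictAnti fun n : ℕ => P.1.valuation t ^ n := pow_right_strictAnti₀ hvt ht
  have hex : ∃ M : ℕ, ¬ P.1.valuation z ≤ P.1.valuation t ^ M := by
    refine ⟨Module.finrank k⟮z⟯ F + 1, fun hcon => ?_⟩
    have h2 := (indep_of_val P hz0 hz1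
      (y := fun i : Fin (Module.finrank k⟮z⟯ F + 1) => t ^ ((i : ℕ) + 1))
      (fun i => pow_ne_zero _ ht0)
      (fun i j hij h => hij (by
        rw [map_pow, map_pow] at h
        have h3 := hanti.injective h
        exact Fin.ext (by omega)))
      (fun i j => by
        rw [map_pow, map_pow]
        have h3 : P.1.valuation t ^ ((i : ℕ) + 1) < 1 := by
          have := hanti (Nat.succ_pos (i : ℕ))
          simpa using this
        refine (mul_lt_of_lt_one_right hvz h3).trans_le (hcon.trans ?_)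
        have h4 : (j : ℕ) + 1 ≤ Module.finrank k⟮z⟯ F + 1 := j.2
        exact hanti.antitone h4)).fintype_card_le_finrank
    rw [Fintype.card_fin] at h2
    omega
  have hM := Nat.find_spec hex
  have hM0 : Nat.find hex ≠ 0 := by
    intro h
    rw [h, pow_zero] at hM
    exact hM hz
  obtain ⟨m, hm⟩ := Nat.exists_eq_succ_of_ne_zero hM0
  have hPm : P.1.valuation z ≤ P.1.valuation t ^ m := by
    have := Nat.find_min hex (m := m) (by omega)
    exact not_not.1 this
  rw [hm] at hM
  refine ⟨m, le_antisymm hPm (not_lt.1 fun hlt => hM ?_)⟩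
  have h5 : P.1.valuation (z * (t ^ m)⁻¹) < 1 := by
    rw [map_mul, map_inv₀, map_pow, ← div_eq_mul_inv]
    exact (div_lt_one₀ (pow_pos hvt m)).2 hlt
  have h6 := hmax _ h5
  rw [map_mul, map_inv₀, map_pow, ← div_eq_mul_inv, div_le_iff₀ (pow_pos hvt m)] at h6
  rw [Nat.succ_eq_add_one, pow_succ']
  exact h6

theorem exists_isOrd (P : Plk k F) : ∃ f : F → ℤ, IsOrd P.1 f := by
  classical
  obtain ⟨t, ht0, ht, hmax⟩ := exists_unif P
  have hvt : 0 < P.1.valuation t := by
    rw [zero_lt_iff]; exact (Valuation.ne_zero_iff _).2 ht0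
  have hex : ∀ z : F, z ≠ 0 → ∃ n : ℤ, P.1.valuation z = P.1.valuation t ^ n := by
    intro z hz0
    rcases le_total (P.1.valuation z) 1 with h | h
    · obtain ⟨m, hm⟩ := exists_pow P ht0 ht hmax hz0 h
      exact ⟨m, by rw [hm, zpow_natCast]⟩
    · obtain ⟨m, hm⟩ := exists_pow P ht0 ht hmax (inv_ne_zero hz0) (by
        rw [map_inv₀]
        exact inv_le_one_of_one_le₀ h)
      refine ⟨-m, ?_⟩
      rw [map_inv₀] at hm
      rw [zpow_neg, zpow_natCast, ← hm, inv_inv]
  have hanti : StrictAnti fun n : ℤ => P.1.valuation t ^ n := zpow_right_strictAnti₀ hvt ht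
  choose g hg using hex
  let f : F → ℤ := fun z => if h : z = 0 then 0 else g z h
  have hf0 : f 0 = 0 := dif_pos rfl
  have hf : ∀ z : F, z ≠ 0 → P.1.valuation z = P.1.valuation t ^ f z := by
    intro z hz
    have : f z = g z hz := dif_neg hz
    rw [this]
    exact hg z hz
  have huniq : ∀ z : F, z ≠ 0 → ∀ n : ℤ, P.1.valuation z = P.1.valuation t ^ n → f z = n := by
    intro z hz n hn
    rw [hf z hz] at hn
    exact hanti.injective hn
  refine ⟨f, ⟨hf0, ?_, ?_, ?_, ?_⟩⟩
  · intro x y hx hy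
    apply huniq _ (mul_ne_zero hx hy)
    rw [map_mul, hf x hx, hf y hy, zpow_add₀ hvt.ne']
  · intro x y hx hy hxy
    have h1 := P.1.valuation.map_add x y
    rw [hf x hx, hf y hy, hf _ hxy] at h1
    rcases le_max_iff.1 h1 with h | h
    · exact (min_le_left _ _).trans (hanti.le_iff_ge.1 h)
    · exact (min_le_right _ _).trans (hanti.le_iff_ge.1 h)
  · intro x
    by_cases hx : x = 0
    · rw [hx]
      exact ⟨fun _ => Or.inl rfl, fun _ => zero_mem _⟩
    · have h1 : P.1.valuation x ≤ 1 ↔ 0 ≤ f x := by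
        rw [hf x hx, ← zpow_zero (P.1.valuation t)]
        exact hanti.le_iff_ge
      rw [← P.1.valuation_le_one_iff, h1]
      exact ⟨fun h => Or.inr h, fun h => h.resolve_left hx⟩
  · exact ⟨t, huniq t ht0 1 (by rw [zpow_one])⟩

/-- the order at a place. -/
noncomputable def ord (P : Plk k F) : F → ℤ := (exists_isOrd P).choose

theorem ord_spec (P : Plk k F) : IsOrd P.1 (ord P) := (exists_isOrd P).choose_spec

/-- places are determined by their orders; the residue field is `k`. -/
theorem exists_cst (P : Plk k F) {z : F} (hz : z ∈ P.1) :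
    ∃ c : k, z = algebraMap k F c ∨ 0 < ord P (z - algebraMap k F c) := by
  obtain ⟨c, hc⟩ := exists_cst' P hz
  refine ⟨c, ?_⟩
  by_cases h : z = algebraMap k F c
  · exact Or.inl h
  right
  have hw : z - algebraMap k F c ≠ 0 := sub_ne_zero.2 h
  have hO := ord_spec P
  have h1 : 0 ≤ ord P (z - algebraMap k F c) :=
    ((hO.mem _).1 (sub_mem hz (P.2.1 c))).resolve_left hw
  by_contra hcon
  have h2 : ord P (z - algebraMap k F c) = 0 := by omega
  have h3 : (z - algebraMap k F c)⁻¹ ∈ P.1 :=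
    (hO.mem _).2 (Or.inr (by rw [ord_inv hO hw, h2, neg_zero]))
  rw [← P.1.valuation_le_one_iff, map_inv₀, inv_le_one₀ (by
    rw [zero_lt_iff]; exact (Valuation.ne_zero_iff _).2 hw)] at h3
  exact absurd hc (not_lt.2 h3)

end

end Vale.Agent.P298.FF
end
end

section

section

/-!
# Rules for the order at a place
-/

namespace Vale.Agent.P298.FF

open Polynomial IntermediateField

section

variable {k F : Type*} [Field k] [Field F] [Algebra k F] [CFF k F]

theorem ord_zero (P : Plk k F) : ord P 0 = 0 := (ord_spec P).zero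

theorem ord_mul (P : Plk k F) {x y : F} (hx : x ≠ 0) (hy : y ≠ 0) :
    ord P (x * y) = ord P x + ord P y := (ord_spec P).mul x y hx hy

theorem ord_one (P : Plk k F) : ord P 1 = 0 := by
  have h := ord_mul P (one_ne_zero (α := F)) (one_ne_zero (α := F))
  rw [one_mul] at h
  omega

theorem ord_inv (P : Plk k F) (x : F) : ord P x⁻¹ = -ord P x := by
  by_cases hx : x = 0
  · rw [hx, inv_zero, ord_zero, neg_zero]
  have h := ord_mul P hx (inv_ne_zero hx)
  rw [mul_inv_cancel₀ hx, ord_one] at h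
  omega

theorem ord_neg (P : Plk k F) (x : F) : ord P (-x) = ord P x := by
  have h0 : (-1 : F) ≠ 0 := neg_ne_zero.2 one_ne_zero
  have h1 : ord P (-1) = 0 := by
    have h := ord_mul P h0 h0
    rw [neg_mul_neg, one_mul, ord_one] at h
    omega
  by_cases hx : x = 0
  · rw [hx, neg_zero]
  have h := ord_mul P h0 hx
  rw [neg_one_mul, h1, zero_add] at h
  exact h

theorem ord_pow (P : Plk k F) (x : F) (n : ℕ) : ord P (x ^ n) = n * ord P x := by
  by_cases hx : x = 0
  · rw [hx, ord_zero, mul_zero]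
    rcases Nat.eq_zero_or_pos n with rfl | hn
    · rw [pow_zero, ord_one]
    · rw [zero_pow hn.ne', ord_zero]
  induction n with
  | zero => rw [pow_zero, ord_one, Nat.cast_zero, zero_mul]
  | succ n ih => rw [pow_succ, ord_mul P (pow_ne_zero n hx) hx, ih, Nat.cast_succ, add_mul, one_mul]

theorem ord_zpow (P : Plk k F) (x : F) (n : ℤ) : ord P (x ^ n) = n * ord P x := by
  cases n with
  | ofNat n => rw [Int.ofNat_eq_natCast, zpow_natCast, ord_pow]
  | negSucc n =>
    rw [zpow_negSucc, ord_inv, ord_pow, Int.negSucc_eq, ← neg_mul]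
    push_cast
    rfl

theorem ord_const (P : Plk k F) (a : k) : ord P (algebraMap k F a) = 0 := by
  by_cases ha : a = 0
  · rw [ha, map_zero, ord_zero]
  have h1 : algebraMap k F a ≠ 0 := by rwa [Ne, map_eq_zero]
  have h2 := (((ord_spec P).mem _).1 (P.2.1 a)).resolve_left h1
  have h3 := (((ord_spec P).mem _).1 (P.2.1 a⁻¹)).resolve_left
    (by rw [map_inv₀]; exact inv_ne_zero h1)
  rw [map_inv₀, ord_inv] at h3
  omega

theorem ord_le_add (P : Plk k F) {x y : F} (hx : x ≠ 0) (hy : y ≠ 0) (h : x + y ≠ 0) :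
    min (ord P x) (ord P y) ≤ ord P (x + y) := (ord_spec P).add x y hx hy h

theorem mem_iff_ord (P : Plk k F) (x : F) : x ∈ P.1 ↔ x = 0 ∨ 0 ≤ ord P x :=
  (ord_spec P).mem x

theorem exists_unif (P : Plk k F) : ∃ π : F, π ≠ 0 ∧ ord P π = 1 := by
  obtain ⟨π, h⟩ := (ord_spec P).one
  refine ⟨π, ?_, h⟩
  rintro rfl
  rw [ord_zero] at h
  exact zero_ne_one h

/-- two places one of which contains the other are equal. -/
theorem Plk.eq_of_le {P Q : Plk k F} (h : ∀ z, z ∈ P.1 → z ∈ Q.1) : P = Q := by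
  obtain ⟨π, hπ0, hπ⟩ := exists_unif P
  have key : ∀ u : F, u ≠ 0 → ord P u = 0 → ord Q u = 0 := by
    intro u hu hu0
    have h1 : u ∈ Q.1 := h u ((mem_iff_ord P u).2 (Or.inr hu0.ge))
    have h2 : u⁻¹ ∈ Q.1 := h _ ((mem_iff_ord P _).2 (Or.inr (by rw [ord_inv, hu0, neg_zero])))
    have h3 := ((mem_iff_ord Q u).1 h1).resolve_left hu
    have h4 := ((mem_iff_ord Q _).1 h2).resolve_left (inv_ne_zero hu)
    rw [ord_inv] at h4
    omega
  have key2 : ∀ z : F, z ≠ 0 → ord Q z = ord P z * ord Q π := by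
    intro z hz
    have h1 : π ^ (-ord P z) ≠ 0 := zpow_ne_zero _ hπ0
    have h2 := key (z * π ^ (-ord P z)) (mul_ne_zero hz h1)
      (by rw [ord_mul P hz h1, ord_zpow, hπ, mul_one, add_neg_cancel])
    rw [ord_mul Q hz h1, ord_zpow, neg_mul] at h2
    omega
  obtain ⟨w, hw⟩ : ∃ w, w ∉ Q.1 := by
    by_contra hcon
    push Not at hcon
    exact Q.2.2 (ValuationSubring.ext _ _ fun z => ⟨fun _ => ValuationSubring.mem_top z,
      fun _ => hcon z⟩)
  have hw0 : w ≠ 0 := by
    rintro rfl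
    exact hw (zero_mem _)
  have hwP : ord P w < 0 := by
    by_contra hcon
    exact hw (h w ((mem_iff_ord P w).2 (Or.inr (not_lt.1 hcon))))
  have hwQ : ord Q w < 0 := by
    by_contra hcon
    exact hw ((mem_iff_ord Q w).2 (Or.inr (not_lt.1 hcon)))
  have hπQ : 0 < ord Q π := by
    rw [key2 w hw0] at hwQ
    by_contra hcon
    exact absurd (mul_nonneg_of_nonpos_of_nonpos hwP.le (not_lt.1 hcon)) (not_le.2 hwQ)
  refine Subtype.ext (ValuationSubring.ext _ _ fun z => ⟨h z, fun hz => ?_⟩)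
  by_cases hz0 : z = 0
  · rw [hz0]; exact zero_mem _
  have h1 := ((mem_iff_ord Q z).1 hz).resolve_left hz0
  rw [key2 z hz0] at h1
  exact (mem_iff_ord P z).2 (Or.inr (nonneg_of_mul_nonneg_left h1 hπQ))

/-- the elements of order at least `n` at `P`. -/
def Mge (P : Plk k F) (n : ℤ) : Submodule k F where
  carrier := {z | z = 0 ∨ n ≤ ord P z}
  zero_mem' := Or.inl rfl
  add_mem' := by
    rintro z w hz hw
    by_cases h1 : z = 0
    · rw [h1, zero_add]; exact hw
    by_cases h2 : w = 0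
    · rw [h2, add_zero]; exact hz
    by_cases h3 : z + w = 0
    · exact Or.inl h3
    · exact Or.inr ((le_min (hz.resolve_left h1) (hw.resolve_left h2)).trans
        (ord_le_add P h1 h2 h3))
  smul_mem' := by
    rintro a z hz
    by_cases h1 : z = 0
    · left; rw [h1, smul_zero]
    by_cases h2 : a = 0
    · left; rw [h2, zero_smul]
    right
    have h3 : algebraMap k F a ≠ 0 := by rwa [Ne, map_eq_zero]
    rw [Algebra.smul_def, ord_mul P h3 h1, ord_const, zero_add]
    exact hz.resolve_left h1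

theorem mem_Mge {P : Plk k F} {n : ℤ} {z : F} : z ∈ Mge P n ↔ z = 0 ∨ n ≤ ord P z := Iff.rfl

theorem Mge_mono (P : Plk k F) {m n : ℤ} (h : m ≤ n) : Mge P n ≤ Mge P m := by
  intro z hz
  rcases hz with h0 | h1
  · exact Or.inl h0
  · exact Or.inr (h.trans h1)

theorem mul_mem_Mge {P : Plk k F} {m n : ℤ} {z w : F} (hz : z ∈ Mge P m) (hw : w ∈ Mge P n) :
    z * w ∈ Mge P (m + n) := by
  by_cases h1 : z = 0
  · left; rw [h1, zero_mul]
  by_cases h2 : w = 0
  · left; rw [h2, mul_zero]
  right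
  rw [ord_mul P h1 h2]
  exact add_le_add (hz.resolve_left h1) (hw.resolve_left h2)

/-- multiplication by a nonzero element shifts the orders. -/
theorem mul_mem_Mge_iff {P : Plk k F} {n : ℤ} {z w : F} (hz : z ≠ 0) :
    z * w ∈ Mge P n ↔ w ∈ Mge P (n - ord P z) := by
  by_cases h2 : w = 0
  · rw [h2, mul_zero]
    exact ⟨fun _ => Or.inl rfl, fun _ => Or.inl rfl⟩
  rw [mem_Mge, mem_Mge, ord_mul P hz h2, mul_eq_zero, or_iff_right hz, sub_le_iff_le_add']

theorem ord_add_of_lt {P : Plk k F} {z w : F} (hz : z ≠ 0) (hw : w ∈ Mge P (ord P z + 1)) :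
    z + w ≠ 0 ∧ ord P (z + w) = ord P z := by
  by_cases h1 : w = 0
  · rw [h1, add_zero]; exact ⟨hz, rfl⟩
  have h2 := hw.resolve_left h1
  have h3 : z + w ≠ 0 := by
    intro h
    rw [eq_neg_of_add_eq_zero_right h, ord_neg] at h2
    omega
  refine ⟨h3, ?_⟩
  have h4 := ord_le_add P hz h1 h3
  have h5 := ord_le_add P h3 (neg_ne_zero.2 h1) (by rw [add_neg_cancel_right]; exact hz)
  rw [add_neg_cancel_right, ord_neg] at h5
  omega

/-- a sum with one dominating term. -/
theorem ord_sum_of_lt {P : Plk k F} {ι : Type*} {s : Finset ι} {f : ι → F} {i : ι} (hi : i ∈ s)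
    (h0 : f i ≠ 0) (h : ∀ j ∈ s, j ≠ i → f j ∈ Mge P (ord P (f i) + 1)) :
    ∑ j ∈ s, f j ≠ 0 ∧ ord P (∑ j ∈ s, f j) = ord P (f i) := by
  classical
  rw [← Finset.add_sum_erase s f hi]
  exact ord_add_of_lt h0 (Submodule.sum_mem _ fun j hj =>
    h j (Finset.mem_of_mem_erase hj) (Finset.ne_of_mem_erase hj))

/-- polynomials in an element of nonnegative order. -/
theorem COrd_aeval_mem {P : Plk k F} {x : F} (hx : 0 ≤ ord P x) (φ : k[X]) :
    aeval x φ ∈ Mge P 0 := by
  rw [Polynomial.aeval_eq_sum_range]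
  refine Submodule.sum_mem _ fun i _ => Submodule.smul_mem _ _ (Or.inr ?_)
  rw [ord_pow]
  exact mul_nonneg (Int.natCast_nonneg i) hx

theorem COrd_aeval_divX {P : Plk k F} {x : F} (hx : 0 < ord P x) (φ : k[X]) :
    aeval x φ.divX * x ∈ Mge P (ord P x) := by
  have h := mul_mem_Mge (COrd_aeval_mem hx.le φ.divX) (show x ∈ Mge P (ord P x) from Or.inr le_rfl)
  rwa [zero_add] at h

omit [CFF k F] in
theorem COrd_aeval_eq (x : F) (φ : k[X]) :
    aeval x φ = algebraMap k F (φ.coeff 0) + aeval x φ.divX * x := by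
  conv_lhs => rw [← Polynomial.divX_mul_X_add φ]
  rw [map_add, map_mul, aeval_X, aeval_C, add_comm]

/-- the values of a polynomial at an element of positive order. -/
theorem ord_aeval_of_coeff_ne {P : Plk k F} {x : F} (hx : 0 < ord P x) {φ : k[X]}
    (h : φ.coeff 0 ≠ 0) : aeval x φ ≠ 0 ∧ ord P (aeval x φ) = 0 := by
  rw [COrd_aeval_eq]
  have h1 : algebraMap k F (φ.coeff 0) ≠ 0 := by rwa [Ne, map_eq_zero]
  have h2 := ord_add_of_lt h1 (P := P) (w := aeval x φ.divX * x)
    (Mge_mono P (by rw [ord_const, zero_add]; exact hx) (COrd_aeval_divX hx φ))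
  rw [ord_const] at h2
  exact h2

theorem aeval_mem_of_coeff_eq {P : Plk k F} {x : F} (hx : 0 < ord P x) {φ : k[X]}
    (h : φ.coeff 0 = 0) : aeval x φ ∈ Mge P (ord P x) := by
  rw [COrd_aeval_eq, h, map_zero, zero_add]
  exact COrd_aeval_divX hx φ

theorem aeval_mem_zero {P : Plk k F} {x : F} (hx : 0 ≤ ord P x) (φ : k[X]) :
    aeval x φ ∈ Mge P 0 := by
  exact COrd_aeval_mem hx φ

/-- `Mge P n / Mge P (n + 1)` is at most one-dimensional. -/
theorem exists_sub_mem {P : Plk k F} {n : ℤ} {z w : F} (hz : z ≠ 0) (hz1 : ord P z = n)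
    (hw : w ∈ Mge P n) : ∃ a : k, w - a • z ∈ Mge P (n + 1) := by
  have h1 : z⁻¹ ∈ Mge P (-n) := Or.inr (by rw [ord_inv, hz1])
  have h2 : w * z⁻¹ ∈ Mge P 0 := by
    have h := mul_mem_Mge hw h1
    rwa [add_neg_cancel] at h
  obtain ⟨c, hc⟩ := exists_cst P ((mem_iff_ord P _).2 h2)
  refine ⟨c, ?_⟩
  have h3 : w - c • z = z * (w * z⁻¹ - algebraMap k F c) := by
    rw [Algebra.smul_def, mul_sub, mul_comm z (w * z⁻¹), mul_assoc, inv_mul_cancel₀ hz, mul_one,
      mul_comm z]
  rw [h3]
  refine mul_mem_Mge (Or.inr hz1.ge) ?_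
  rcases hc with hc | hc
  · left; rw [hc, sub_self]
  · right; exact hc

end

end Vale.Agent.P298.FF
end
end

section

section

/-!
# Weak approximation
-/

namespace Vale.Agent.P298.FF

section

variable {k F : Type*} [Field k] [Field F] [Algebra k F] [CFF k F]

theorem CAppr_add {P : Plk k F} {x y : F} (hx : x ≠ 0) (hy : y ≠ 0) (h : ord P x ≠ ord P y) :
    x + y ≠ 0 ∧ ord P (x + y) = min (ord P x) (ord P y) := by
  rcases lt_or_gt_of_ne h with h | h
  · have h1 := ord_add_of_lt (P := P) (w := y) hx (mem_Mge.2 (Or.inr (by omega)))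
    rw [min_eq_left h.le]
    exact h1
  · have h1 := ord_add_of_lt (P := P) (w := x) hy (mem_Mge.2 (Or.inr (by omega)))
    rw [min_eq_right h.le, add_comm]
    exact h1

theorem CAppr_pair {P Q : Plk k F} (h : P ≠ Q) :
    ∃ u : F, u ≠ 0 ∧ 0 < ord P u ∧ ord Q u < 0 := by
  have key : ∀ P Q : Plk k F, P ≠ Q → ∃ y : F, y ≠ 0 ∧ 0 ≤ ord P y ∧ ord Q y < 0 := by
    intro P Q h
    by_contra hc
    push Not at hc
    refine h (Plk.eq_of_le fun z hz => ?_)
    rw [mem_iff_ord] at hz ⊢
    by_cases hz0 : z = 0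
    · exact Or.inl hz0
    · exact Or.inr (hc z hz0 (hz.resolve_left hz0))
  obtain ⟨y, hy0, hy1, hy2⟩ := key P Q h
  obtain ⟨z, hz0, hz1, hz2⟩ := key Q P h.symm
  refine ⟨y * z⁻¹, mul_ne_zero hy0 (inv_ne_zero hz0), ?_, ?_⟩
  · rw [ord_mul P hy0 (inv_ne_zero hz0), ord_inv]
    omega
  · rw [ord_mul Q hy0 (inv_ne_zero hz0), ord_inv]
    omega

theorem CAppr_sep (P : Plk k F) (S : Finset (Plk k F)) (hP : P ∉ S) :
    ∃ u : F, u ≠ 0 ∧ 0 < ord P u ∧ ∀ Q ∈ S, ord Q u < 0 := by
  classical
  induction S using Finset.induction_on with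
  | empty =>
    obtain ⟨u, hu0, hu1⟩ := exists_unif P
    exact ⟨u, hu0, by omega, fun Q hQ => absurd hQ (Finset.notMem_empty Q)⟩
  | insert Q S hQ ih =>
    rw [Finset.mem_insert, not_or] at hP
    obtain ⟨y, hy0, hy1, hy2⟩ := ih hP.2
    by_cases hQy : ord Q y < 0
    · refine ⟨y, hy0, hy1, fun R hR => ?_⟩
      rcases Finset.mem_insert.1 hR with rfl | hR
      · exact hQy
      · exact hy2 R hR
    · obtain ⟨z, hz0, hz1, hz2⟩ := CAppr_pair hP.1
      set r : ℕ := 1 + ∑ R ∈ S, (ord R y).natAbs with hr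
      have hr1 : 1 ≤ r := Nat.le_add_right _ _
      have hrS : ∀ R ∈ S, (ord R y).natAbs < r := by
        intro R hR
        have := Finset.single_le_sum (f := fun R => (ord R y).natAbs)
          (fun _ _ => Nat.zero_le _) hR
        omega
      have hzr : z ^ r ≠ 0 := pow_ne_zero r hz0
      have hQ1 : ord Q (z ^ r) < 0 := by
        rw [ord_pow]
        have : (0 : ℤ) < r := by exact_mod_cast hr1
        exact mul_neg_of_pos_of_neg this hz2
      have hQ2 := CAppr_add (P := Q) hy0 hzr (by omega)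
      refine ⟨y + z ^ r, hQ2.1, ?_, fun R hR => ?_⟩
      · have h1 := ord_le_add P hy0 hzr hQ2.1
        have h2 : 0 < ord P (z ^ r) := by
          rw [ord_pow]
          have : (0 : ℤ) < r := by exact_mod_cast hr1
          exact mul_pos this hz1
        exact (lt_min hy1 h2).trans_le h1
      · rcases Finset.mem_insert.1 hR with rfl | hR
        · rw [hQ2.2]
          exact (min_le_right _ _).trans_lt hQ1
        · have h1 : ord R y ≠ ord R (z ^ r) := by
            rw [ord_pow]
            intro h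
            have h2 := hrS R hR
            have h3 := hy2 R hR
            rw [h, Int.natAbs_mul, Int.natAbs_natCast] at h2
            have h4 : (ord R z).natAbs = 0 := by
              by_contra h5
              have : r * 1 ≤ r * (ord R z).natAbs := Nat.mul_le_mul_left r (by omega)
              omega
            rw [Int.natAbs_eq_zero] at h4
            rw [h4, mul_zero] at h
            omega
          rw [(CAppr_add hy0 hzr h1).2]
          exact (min_le_left _ _).trans_lt (hy2 R hR)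

theorem CAppr_one (P : Plk k F) (S : Finset (Plk k F)) (hP : P ∉ S) (N : ℤ) :
    ∃ w : F, w - 1 ∈ Mge P N ∧ ∀ Q ∈ S, w ∈ Mge Q N := by
  obtain ⟨u, hu0, hu1, hu2⟩ := CAppr_sep P S hP
  set s : ℕ := 1 + N.toNat with hs
  have hs1 : (1 : ℤ) ≤ s := by omega
  have hsN : N ≤ s := by omega
  have hv0 : u ^ s ≠ 0 := pow_ne_zero s hu0
  have hPv : (s : ℤ) ≤ ord P (u ^ s) := by
    rw [ord_pow]
    nlinarith
  have hP1 := ord_add_of_lt (P := P) (z := 1) (w := u ^ s) one_ne_zero
    (mem_Mge.2 (Or.inr (by rw [ord_one]; omega)))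
  rw [ord_one] at hP1
  refine ⟨(1 + u ^ s)⁻¹, ?_, fun Q hQ => ?_⟩
  · have e : (1 + u ^ s)⁻¹ - 1 = -(u ^ s * (1 + u ^ s)⁻¹) := by
      field_simp [hP1.1]
      ring
    rw [e]
    have h1 : u ^ s ∈ Mge P (s : ℤ) := mem_Mge.2 (Or.inr hPv)
    have h2 : (1 + u ^ s)⁻¹ ∈ Mge P 0 :=
      mem_Mge.2 (Or.inr (by rw [ord_inv, hP1.2, neg_zero]))
    have h3 := mul_mem_Mge h1 h2
    exact (Mge P N).neg_mem (Mge_mono P (by omega) h3)
  · have hQv : ord Q (u ^ s) ≤ -(s : ℤ) := by
      rw [ord_pow]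
      have := hu2 Q hQ
      nlinarith
    have h1 := CAppr_add (P := Q) (x := 1) (y := u ^ s) one_ne_zero hv0
      (by rw [ord_one]; omega)
    refine mem_Mge.2 (Or.inr ?_)
    rw [ord_inv, h1.2, ord_one, min_eq_right (by omega)]
    omega

theorem weak_appr (S : Finset (Plk k F)) (f : Plk k F → F) (N : ℤ) :
    ∃ z : F, ∀ P ∈ S, z - f P ∈ Mge P N := by
  classical
  set M : ℤ := ∑ P ∈ S, ∑ Q ∈ S, |ord Q (f P)| with hM
  have hMb : ∀ P ∈ S, ∀ Q ∈ S, |ord Q (f P)| ≤ M := by
    intro P hP Q hQ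
    have h1 : |ord Q (f P)| ≤ ∑ Q ∈ S, |ord Q (f P)| :=
      Finset.single_le_sum (f := fun Q => |ord Q (f P)|) (fun _ _ => abs_nonneg _) hQ
    have h2 : ∑ Q ∈ S, |ord Q (f P)| ≤ M :=
      Finset.single_le_sum (f := fun P => ∑ Q ∈ S, |ord Q (f P)|)
        (fun _ _ => Finset.sum_nonneg fun _ _ => abs_nonneg _) hP
    exact h1.trans h2
  have hex : ∀ P : Plk k F, ∃ w : F, w - 1 ∈ Mge P (N + M) ∧
      ∀ Q ∈ S.erase P, w ∈ Mge Q (N + M) := fun P =>
    CAppr_one P (S.erase P) (Finset.notMem_erase P S) (N + M)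
  choose w hw1 hw2 using hex
  refine ⟨∑ P ∈ S, f P * w P, fun P hP => ?_⟩
  have hf : ∀ Q ∈ S, f Q ∈ Mge P (-M) := fun Q hQ =>
    mem_Mge.2 (Or.inr (neg_le_of_abs_le (hMb Q hQ P hP)))
  have e : ∑ Q ∈ S, f Q * w Q - f P = f P * (w P - 1) + ∑ Q ∈ S.erase P, f Q * w Q := by
    rw [← Finset.add_sum_erase S _ hP]
    ring
  rw [e]
  have e2 : -M + (N + M) = N := by ring
  refine (Mge P N).add_mem ?_ ((Mge P N).sum_mem fun Q hQ => ?_)
  · have := mul_mem_Mge (hf P hP) (hw1 P)
    rwa [e2] at this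
  · have hQ' := Finset.mem_erase.1 hQ
    have := mul_mem_Mge (hf Q hQ'.2) (hw2 Q P (Finset.mem_erase.2 ⟨hQ'.1.symm, hP⟩))
    rwa [e2] at this

/-- elements with given orders. -/
theorem exists_ord_eq (S : Finset (Plk k F)) (m : Plk k F → ℤ) :
    ∃ z : F, z ≠ 0 ∧ ∀ P ∈ S, ord P z = m P := by
  rcases S.eq_empty_or_nonempty with rfl | ⟨P0, hP0⟩
  · exact ⟨1, one_ne_zero, fun P hP => absurd hP (Finset.notMem_empty P)⟩
  choose π hπ0 hπ1 using fun P : Plk k F => exists_unif P
  obtain ⟨z, hz⟩ := weak_appr S (fun P => π P ^ m P) (1 + ∑ P ∈ S, |m P|)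
  have key : ∀ P ∈ S, z ≠ 0 ∧ ord P z = m P := by
    intro P hP
    have h1 : |m P| ≤ ∑ P ∈ S, |m P| :=
      Finset.single_le_sum (f := fun P => |m P|) (fun _ _ => abs_nonneg _) hP
    have h2 : ord P (π P ^ m P) = m P := by rw [ord_zpow, hπ1, mul_one]
    have h3 : z - π P ^ m P ∈ Mge P (ord P (π P ^ m P) + 1) := by
      rw [h2]
      exact Mge_mono P (by linarith [le_abs_self (m P)]) (hz P hP)
    have h4 := ord_add_of_lt (zpow_ne_zero (m P) (hπ0 P)) h3
    rw [add_sub_cancel, h2] at h4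
    exact h4
  exact ⟨z, (key P0 hP0).1, fun P hP => (key P hP).2⟩

end

end Vale.Agent.P298.FF
end
end

section

section

/-!
# The zeros of a function
-/

namespace Vale.Agent.P298.FF

open Polynomial IntermediateField

section

variable {k F : Type*} [Field k] [Field F] [Algebra k F] [CFF k F]

/-- the number of zeros is bounded by the degree. -/
theorem sum_ord_le {x : F} (hx : ∀ a : k, x ≠ algebraMap k F a) (S : Finset (Plk k F))
    (hS : ∀ P ∈ S, 0 < ord P x) : ∑ P ∈ S, ord P x ≤ Module.finrank k⟮x⟯ F := by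
  classical
  obtain ⟨hT, hfd⟩ := finite_of_notMem hx
  choose w hw0 hw using fun i : (P : S) × Fin (ord P.1 x).toNat =>
    exists_ord_eq S (fun Q => if Q = i.1.1 then ((i.2 : ℕ) : ℤ) else ord Q x)
  have hwP : ∀ i, ord i.1.1 (w i) = ((i.2 : ℕ) : ℤ) := fun i => by
    rw [hw i _ i.1.2, if_pos rfl]
  have hli : LinearIndependent k⟮x⟯ w := by
    by_contra hnot
    obtain ⟨φ, ⟨⟨P, a0⟩, h0⟩, hrel⟩ := exists_rel hT hnot
    obtain ⟨a, ha, hmin⟩ := Finset.exists_min_image
      (Finset.univ.filter fun a : Fin (ord P.1 x).toNat => (φ ⟨P, a⟩).coeff 0 ≠ 0)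
      (fun a => (a : ℕ)) ⟨a0, by simp only [Finset.mem_filter, Finset.mem_univ, true_and]; exact h0⟩
    rw [Finset.mem_filter] at ha
    have hPx : 0 < ord P.1 x := hS P.1 P.2
    have hax : ((a : ℕ) : ℤ) < ord P.1 x := by
      have h1 := a.2
      omega
    obtain ⟨h1, h2⟩ := ord_aeval_of_coeff_ne hPx ha.2
    have h3 : aeval x (φ ⟨P, a⟩) * w ⟨P, a⟩ ≠ 0 := mul_ne_zero h1 (hw0 _)
    have h4 : ord P.1 (aeval x (φ ⟨P, a⟩) * w ⟨P, a⟩) = ((a : ℕ) : ℤ) := by
      rw [ord_mul P.1 h1 (hw0 _), h2, zero_add]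
      exact hwP ⟨P, a⟩
    refine (ord_sum_of_lt (P := P.1) (s := Finset.univ)
      (f := fun i => aeval x (φ i) * w i) (i := ⟨P, a⟩) (Finset.mem_univ _) h3 ?_).1 hrel
    rintro ⟨Q, b⟩ - hne
    rw [h4]
    by_cases hQ : Q = P
    · subst hQ
      have hb : w ⟨Q, b⟩ ∈ Mge Q.1 ((b : ℕ) : ℤ) := Or.inr (hwP ⟨Q, b⟩).ge
      by_cases hc : (φ ⟨Q, b⟩).coeff 0 = 0
      · have h5 := mul_mem_Mge (aeval_mem_of_coeff_eq hPx hc) hb
        exact Mge_mono _ (by omega) h5
      · have h5 := mul_mem_Mge (aeval_mem_zero hPx.le (φ ⟨Q, b⟩)) hb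
        have h6 := hmin b (by simp only [Finset.mem_filter, Finset.mem_univ, true_and]; exact hc)
        have h7 : (b : ℕ) ≠ (a : ℕ) := fun h8 => hne (by rw [Fin.ext h8])
        exact Mge_mono _ (by omega) h5
    · have hb : w ⟨Q, b⟩ ∈ Mge P.1 (ord P.1 x) := by
        refine Or.inr (le_of_eq ?_)
        rw [hw ⟨Q, b⟩ P.1 P.2, if_neg]
        exact fun h5 => hQ (Subtype.ext h5.symm)
      have h5 := mul_mem_Mge (aeval_mem_zero hPx.le (φ ⟨Q, b⟩)) hb
      exact Mge_mono _ (by omega) h5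
  have hcard := hli.fintype_card_le_finrank
  have h1 : Fintype.card ((P : S) × Fin (ord P.1 x).toNat) = ∑ P ∈ S, (ord P x).toNat := by
    rw [Fintype.card_sigma, ← Finset.sum_coe_sort S]
    simp only [Fintype.card_fin]
  have h2 : ∑ P ∈ S, ord P x = ((∑ P ∈ S, (ord P x).toNat : ℕ) : ℤ) := by
    rw [Nat.cast_sum]
    exact Finset.sum_congr rfl fun P hP => (Int.toNat_of_nonneg (hS P hP).le).symm
  rw [h2, ← h1]
  exact_mod_cast hcard

theorem zeros_finite {x : F} (hx : ∀ a : k, x ≠ algebraMap k F a) :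
    {P : Plk k F | 0 < ord P x}.Finite := by
  by_contra hinf
  obtain ⟨t, ht, hcard⟩ := Set.Infinite.exists_subset_card_eq hinf (Module.finrank k⟮x⟯ F + 1)
  have h1 := sum_ord_le hx t (fun P hP => ht hP)
  have h2 : ∑ _P ∈ t, (1 : ℤ) ≤ ∑ P ∈ t, ord P x := Finset.sum_le_sum fun P hP => ht hP
  rw [Finset.sum_const, hcard, nsmul_eq_mul, mul_one] at h2
  push_cast at h2
  omega

theorem dv_finite {z : F} (hz : z ≠ 0) : {P : Plk k F | ord P z ≠ 0}.Finite := by
  by_cases hc : ∃ a : k, z = algebraMap k F a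
  · obtain ⟨a, rfl⟩ := hc
    refine Set.finite_empty.subset fun P hP => ?_
    exact hP (ord_const P a)
  · push Not at hc
    refine ((zeros_finite hc).union (zeros_finite (nc_inv hc))).subset fun P hP => ?_
    rcases lt_trichotomy (ord P z) 0 with h | h | h
    · right
      show 0 < ord P z⁻¹
      rw [ord_inv]
      omega
    · exact absurd h hP
    · left
      exact h

/-- the places over `x = c` are finite in number. -/
theorem fib_finite {x : F} (hx : ∀ a : k, x ≠ algebraMap k F a) (c : k) :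
    {P : Plk k F | 0 < ord P (x - algebraMap k F c)}.Finite :=
  zeros_finite (nc_sub hx c)

variable (k) in
open Classical in
/-- the divisor of a function. -/
noncomputable def dv (z : F) : Plk k F →₀ ℤ :=
  if hz : z ≠ 0 then Finsupp.ofSupportFinite (fun P => ord P z) (dv_finite hz) else 0

theorem dv_apply (z : F) (P : Plk k F) : dv k z P = ord P z := by
  unfold dv
  split_ifs with h
  · rfl
  · push Not at h
    rw [h, (ord_spec P).zero]
    rfl

theorem dv_mul {z w : F} (hz : z ≠ 0) (hw : w ≠ 0) : dv k (z * w) = dv k z + dv k w := by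
  ext P
  rw [Finsupp.add_apply, dv_apply, dv_apply, dv_apply, ord_mul P hz hw]

theorem dv_inv (z : F) : dv k z⁻¹ = -dv k z := by
  ext P
  rw [Finsupp.neg_apply, dv_apply, dv_apply, ord_inv]

theorem dv_const (a : k) : dv k (algebraMap k F a) = 0 := by
  ext P
  rw [dv_apply, ord_const, Finsupp.zero_apply]

end

end Vale.Agent.P298.FF
end
end

section

section

/-!
# Existence of zeros and poles
-/

namespace Vale.Agent.P298.FF

open IntermediateField

section

variable {k F : Type*} [Field k] [Field F] [Algebra k F] [CFF k F]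

omit [CFF k F] in
/-- the ring `k[z]` is contained in a valuation ring in which `z` is not a unit. -/
theorem CPole_exists_val {z : F} (hz : Transcendental k z) :
    ∃ B : ValuationSubring F, (∀ a : k, algebraMap k F a ∈ B) ∧ z ∈ B ∧ z⁻¹ ∉ B := by
  have hz0 : z ≠ 0 := fun h => hz (h ▸ isAlgebraic_zero)
  let A : Subring F := (Polynomial.aeval (R := k) z).range.toSubring
  have hmem : z ∈ A := ⟨Polynomial.X, Polynomial.aeval_X z⟩
  have hI : Ideal.span {(⟨z, hmem⟩ : A)} ≠ ⊤ := by
    intro h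
    have h1 : (1 : A) ∈ Ideal.span {(⟨z, hmem⟩ : A)} := by rw [h]; exact Submodule.mem_top
    obtain ⟨w, hw⟩ := Ideal.mem_span_singleton'.1 h1
    obtain ⟨p, hp⟩ := w.2
    have h2 : (w : F) * z = 1 := congrArg Subtype.val hw
    have h3 : Polynomial.aeval z (p * Polynomial.X - 1) = 0 := by
      rw [map_sub, map_mul, Polynomial.aeval_X, map_one, sub_eq_zero, ← h2]
      congr 1
    have h4 := (transcendental_iff.1 hz) _ h3
    have h5 := congrArg (fun q : Polynomial k => q.coeff 0) h4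
    simp at h5
  obtain ⟨B, hB, hB2⟩ := Ideal.image_subset_nonunits_valuationSubring _ hI
  have h1 : z ∈ B.nonunits := hB2 ⟨_, Ideal.subset_span rfl, rfl⟩
  rw [ValuationSubring.mem_nonunits_iff] at h1
  refine ⟨B, fun a => hB ⟨Polynomial.C a, Polynomial.aeval_C z a⟩, hB hmem, fun h2 => ?_⟩
  rw [← ValuationSubring.valuation_le_one_iff, map_inv₀] at h2
  have h3 : B.valuation z ≠ 0 := (Valuation.ne_zero_iff _).2 hz0
  exact absurd h1 (not_lt.2 ((inv_le_one₀ (zero_lt_iff.2 h3)).1 h2))

theorem exists_zero {z : F} (hz : ∀ a : k, z ≠ algebraMap k F a) : ∃ P : Plk k F, 0 < ord P z := by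
  have hz0 : z ≠ 0 := fun h => hz 0 (by rw [h, map_zero])
  obtain ⟨B, h1, h2, h3⟩ := CPole_exists_val (finite_of_notMem hz).1
  let P : Plk k F := ⟨B, h1, fun h => h3 (h ▸ ValuationSubring.mem_top _)⟩
  refine ⟨P, lt_of_not_ge fun h => h3 ?_⟩
  have h4 : 0 ≤ ord P z⁻¹ := by
    rw [ord_inv]
    omega
  exact ((ord_spec P).mem z⁻¹).2 (Or.inr h4)

theorem exists_pole {z : F} (hz : ∀ a : k, z ≠ algebraMap k F a) : ∃ P : Plk k F, ord P z < 0 := by
  obtain ⟨P, hP⟩ := exists_zero (nc_inv hz)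
  rw [ord_inv] at hP
  exact ⟨P, by omega⟩

theorem dv_eq_zero_iff {z : F} (hz : z ≠ 0) : dv k z = 0 ↔ ∃ a : k, z = algebraMap k F a := by
  constructor
  · intro h
    by_contra hc
    push Not at hc
    obtain ⟨P, hP⟩ := exists_zero hc
    rw [← dv_apply, h, Finsupp.coe_zero, Pi.zero_apply] at hP
    exact lt_irrefl _ hP
  · rintro ⟨a, rfl⟩
    exact dv_const a

variable (k F) in
theorem nonempty_Plk : Nonempty (Plk k F) := by
  obtain ⟨x, hx, _⟩ := CFF.ex (k := k) (F := F)
  obtain ⟨P, _⟩ := exists_zero (k := k) (z := x) fun a h => hx (h ▸ isAlgebraic_algebraMap a)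
  exact ⟨P⟩

variable (k F) in
/-- principal divisors. -/
def prn : AddSubgroup (Plk k F →₀ ℤ) where
  carrier := {D | ∃ z : F, z ≠ 0 ∧ D = dv k z}
  zero_mem' := ⟨1, one_ne_zero, ((dv_eq_zero_iff one_ne_zero).2 ⟨1, (map_one _).symm⟩).symm⟩
  add_mem' := by
    rintro _ _ ⟨z, hz, rfl⟩ ⟨w, hw, rfl⟩
    refine ⟨z * w, mul_ne_zero hz hw, ?_⟩
    ext P
    rw [Finsupp.add_apply, dv_apply, dv_apply, dv_apply, (ord_spec P).mul z w hz hw]
  neg_mem' := by
    rintro _ ⟨z, hz, rfl⟩
    refine ⟨z⁻¹, inv_ne_zero hz, ?_⟩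
    ext P
    have h1 := (ord_spec P).mul z z⁻¹ hz (inv_ne_zero hz)
    have h2 := (ord_spec P).mul 1 1 one_ne_zero one_ne_zero
    rw [mul_inv_cancel₀ hz] at h1
    rw [mul_one] at h2
    rw [Finsupp.neg_apply, dv_apply, dv_apply]
    omega

variable (k) in
/-- the Riemann-Roch space. -/
def LL (D : Plk k F →₀ ℤ) : Submodule k F where
  carrier := {z | z = 0 ∨ ∀ P, -D P ≤ ord P z}
  zero_mem' := Or.inl rfl
  add_mem' := by
    rintro z w hz hw
    by_cases h1 : z = 0
    · rw [h1, zero_add]; exact hw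
    by_cases h2 : w = 0
    · rw [h2, add_zero]; exact hz
    by_cases h3 : z + w = 0
    · exact Or.inl h3
    · right
      intro P
      have h4 := (hz.resolve_left h1) P
      have h5 := (hw.resolve_left h2) P
      exact (le_min h4 h5).trans ((ord_spec P).add z w h1 h2 h3)
  smul_mem' := by
    rintro a z hz
    by_cases h1 : z = 0
    · left; rw [h1, smul_zero]
    by_cases h2 : a = 0
    · left; rw [h2, zero_smul]
    right
    intro P
    have h3 : algebraMap k F a ≠ 0 := by rwa [Ne, map_eq_zero]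
    have h4 : dv k (algebraMap k F a) = 0 := (dv_eq_zero_iff h3).2 ⟨a, rfl⟩
    have h5 : ord P (algebraMap k F a) = 0 := by rw [← dv_apply, h4]; rfl
    rw [Algebra.smul_def, (ord_spec P).mul _ _ h3 h1, h5, zero_add]
    exact (hz.resolve_left h1) P

theorem mem_LL {D : Plk k F →₀ ℤ} {z : F} : z ∈ LL k D ↔ z = 0 ∨ ∀ P, -D P ≤ ord P z := Iff.rfl

theorem mem_LL_iff {D : Plk k F →₀ ℤ} {z : F} : z ∈ LL k D ↔ ∀ P, z ∈ Mge P (-D P) := by
  rw [mem_LL]
  exact forall_or_left.symm

end

end Vale.Agent.P298.FF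
end
end

section

section

/-!
# Divisors: degree, induction along points
-/

namespace Vale.Agent.P298.FF

variable {P : Type*}

theorem dg_apply (D : P →₀ ℤ) : dg D = D.sum fun _ n => n := by
  unfold dg
  rw [Finsupp.liftAddHom_apply]
  rfl

theorem dg_sgl (p : P) (n : ℤ) : dg (Finsupp.single p n) = n := by
  rw [dg_apply, Finsupp.sum_single_index rfl]

private theorem dg_nonneg {D : P →₀ ℤ} (h : 0 ≤ D) : 0 ≤ dg D := by
  rw [dg_apply]
  exact Finset.sum_nonneg fun p _ => h p

theorem dg_mono {D E : P →₀ ℤ} (h : D ≤ E) : dg D ≤ dg E := by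
  have h1 : 0 ≤ dg (E - D) := dg_nonneg (sub_nonneg.2 h)
  rw [map_sub] at h1
  linarith

theorem eq_of_le_of_dg_le {D E : P →₀ ℤ} (h : D ≤ E) (h1 : dg E ≤ dg D) : D = E := by
  have h2 : dg (E - D) ≤ 0 := by rw [map_sub]; linarith
  rw [dg_apply] at h2
  have hn : ∀ p ∈ (E - D).support, 0 ≤ (E - D) p := fun p _ => by
    rw [Finsupp.sub_apply]
    exact sub_nonneg.2 (h p)
  have h3 : (E - D).sum (fun _ n => n) = 0 := le_antisymm h2 (Finset.sum_nonneg hn)
  have h4 := (Finset.sum_eq_zero_iff_of_nonneg hn).1 h3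
  ext p
  by_cases hp : p ∈ (E - D).support
  · have := h4 p hp
    rw [Finsupp.sub_apply] at this
    linarith
  · rw [Finsupp.notMem_support_iff, Finsupp.sub_apply] at hp
    linarith

theorem dg_eq_sum {D : P →₀ ℤ} {S : Finset P} (h : ∀ p, p ∉ S → D p = 0) :
    dg D = ∑ p ∈ S, D p := by
  rw [dg_apply]
  refine Finsupp.sum_of_support_subset D ?_ _ fun _ _ => rfl
  intro p hp
  by_contra hps
  exact Finsupp.mem_support_iff.1 hp (h p hps)

/-- induction upwards from a divisor, adding one point at a time. -/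
theorem dv_induct {motive : (P →₀ ℤ) → Prop} {D : P →₀ ℤ} (h0 : motive D)
    (hs : ∀ (E : P →₀ ℤ) (p : P), D ≤ E → motive E → motive (E + Finsupp.single p 1))
    {E : P →₀ ℤ} (hE : D ≤ E) : motive E := by
  obtain ⟨n, hn⟩ : ∃ n : ℕ, n = (dg (E - D)).toNat := ⟨_, rfl⟩
  induction n generalizing E with
  | zero =>
    have h1 : dg E ≤ dg D := by
      have : dg (E - D) ≤ 0 := by
        by_contra hc
        push Not at hc
        have := Int.toNat_of_nonneg hc.le
        omega
      rw [map_sub] at this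
      linarith
    rw [← eq_of_le_of_dg_le hE h1]
    exact h0
  | succ n ih =>
    have hne : E ≠ D := by
      rintro rfl
      rw [sub_self, map_zero] at hn
      simp at hn
    obtain ⟨p, hp⟩ : ∃ p, E p ≠ D p := by
      by_contra hc
      push Not at hc
      exact hne (Finsupp.ext hc)
    have hp1 : D p < E p := lt_of_le_of_ne (hE p) (Ne.symm hp)
    have hE' : D ≤ E - Finsupp.single p 1 := by
      intro q
      rw [Finsupp.sub_apply]
      by_cases hq : q = p
      · subst hq
        rw [Finsupp.single_eq_same]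
        omega
      · rw [Finsupp.single_eq_of_ne hq, sub_zero]
        exact hE q
    have h2 : n = (dg (E - Finsupp.single p 1 - D)).toNat := by
      have : dg (E - Finsupp.single p 1 - D) = dg (E - D) - 1 := by
        rw [map_sub, map_sub, map_sub, dg_sgl]
        ring
      rw [this]
      omega
    have h3 := hs _ p hE' (ih hE' h2)
    rwa [sub_add_cancel] at h3

end Vale.Agent.P298.FF
end
end

section

section

/-!
# Riemann-Roch spaces: finiteness and elementary estimates
-/

namespace Vale.Agent.P298.FF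

open IntermediateField

section

variable {k F : Type*} [Field k] [Field F] [Algebra k F] [CFF k F]

theorem LL_mono {D E : Plk k F →₀ ℤ} (h : D ≤ E) : LL k D ≤ LL k E := by
  intro z hz
  rcases mem_LL.1 hz with h0 | h1
  · exact mem_LL.2 (Or.inl h0)
  · exact mem_LL.2 (Or.inr fun P => (neg_le_neg (h P)).trans (h1 P))

theorem LL_zero_le {z : F} (hz : z ∈ LL k (0 : Plk k F →₀ ℤ)) : ∃ a : k, z = algebraMap k F a := by
  by_contra hc
  have hc' : ∀ a : k, z ≠ algebraMap k F a := fun a ha => hc ⟨a, ha⟩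
  obtain ⟨P, hP⟩ := exists_pole hc'
  rcases mem_LL.1 hz with h0 | h1
  · exact hc' 0 (by rw [h0, map_zero])
  · have h2 := h1 P
    rw [Finsupp.zero_apply, neg_zero] at h2
    omega

/-- adding a point adds at most one element. -/
theorem LL_step {D : Plk k F →₀ ℤ} {P : Plk k F} {z w : F}
    (hz : z ∈ LL k (D + Finsupp.single P 1)) (hz' : z ∉ LL k D)
    (hw : w ∈ LL k (D + Finsupp.single P 1)) : ∃ a : k, w - a • z ∈ LL k D := by
  classical
  have hz0 : z ≠ 0 := fun h => hz' (by rw [h]; exact Submodule.zero_mem _)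
  have hzo : ∀ Q, -(D + Finsupp.single P (1 : ℤ)) Q ≤ ord Q z := (mem_LL.1 hz).resolve_left hz0
  have hne : ∀ Q, Q ≠ P → (D + Finsupp.single P (1 : ℤ)) Q = D Q := fun Q hQ => by
    rw [Finsupp.add_apply, Finsupp.single_apply, if_neg (Ne.symm hQ), add_zero]
  have hPP : (D + Finsupp.single P (1 : ℤ)) P = D P + 1 := by
    rw [Finsupp.add_apply, Finsupp.single_eq_same]
  have hzP : ord P z = -D P - 1 := by
    have h1 := hzo P
    rw [hPP] at h1
    by_contra hc
    refine hz' (mem_LL.2 (Or.inr fun Q => ?_))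
    by_cases hQ : Q = P
    · rw [hQ]; omega
    · have h2 := hzo Q
      rw [hne Q hQ] at h2
      exact h2
  have hwM := mem_LL_iff.1 hw
  have hzM := mem_LL_iff.1 hz
  have hwP : w ∈ Mge P (-D P - 1) := by
    have h := hwM P
    rw [hPP] at h
    have e : -(D P + 1) = -D P - 1 := by ring
    rwa [e] at h
  obtain ⟨a, ha⟩ := exists_sub_mem hz0 hzP hwP
  refine ⟨a, mem_LL_iff.2 fun Q => ?_⟩
  by_cases hQ : Q = P
  · rw [hQ]
    have e : -D P - 1 + 1 = -D P := by ring
    rwa [e] at ha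
  · have h1 := hwM Q
    have h2 := hzM Q
    rw [hne Q hQ] at h1 h2
    exact Submodule.sub_mem _ h1 (Submodule.smul_mem _ _ h2)

theorem CL_le_sup {D : Plk k F →₀ ℤ} {P : Plk k F} {z : F}
    (hz : z ∈ LL k (D + Finsupp.single P 1)) (hz' : z ∉ LL k D) :
    LL k (D + Finsupp.single P 1) ≤ LL k D ⊔ Submodule.span k {z} := by
  intro w hw
  obtain ⟨a, ha⟩ := LL_step hz hz' hw
  rw [Submodule.mem_sup]
  exact ⟨w - a • z, ha, a • z, Submodule.smul_mem _ _ (Submodule.mem_span_singleton_self z),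
    by rw [sub_add_cancel]⟩

omit [CFF k F] in
theorem CL_le_single (D : Plk k F →₀ ℤ) (P : Plk k F) : D ≤ D + Finsupp.single P 1 := by
  classical
  intro Q
  rw [Finsupp.add_apply, Finsupp.single_apply]
  split_ifs <;> omega

theorem CL_zero_le_span : LL k (0 : Plk k F →₀ ℤ) ≤ Submodule.span k {(1 : F)} := by
  intro z hz
  obtain ⟨a, rfl⟩ := LL_zero_le hz
  rw [Algebra.algebraMap_eq_smul_one]
  exact Submodule.smul_mem _ _ (Submodule.mem_span_singleton_self _)

instance LL_finite (D : Plk k F →₀ ℤ) : FiniteDimensional k (LL k D) := by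
  classical
  have key : ∀ E : Plk k F →₀ ℤ, 0 ≤ E → FiniteDimensional k (LL k E) := by
    intro E hE
    refine dv_induct (motive := fun E => FiniteDimensional k (LL k E)) (D := 0) ?_ ?_ hE
    · exact Submodule.finiteDimensional_of_le CL_zero_le_span
    · intro E P _ ih
      by_cases h : LL k (E + Finsupp.single P 1) ≤ LL k E
      · exact Submodule.finiteDimensional_of_le h
      · obtain ⟨z, hz, hz'⟩ := Set.not_subset.1 h
        exact Submodule.finiteDimensional_of_le (CL_le_sup hz hz')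
  have h1 : D ≤ D ⊔ 0 := le_sup_left
  have h2 : FiniteDimensional k (LL k (D ⊔ 0)) := key _ le_sup_right
  exact Submodule.finiteDimensional_of_le (LL_mono h1)

theorem l_mono {D E : Plk k F →₀ ℤ} (h : D ≤ E) :
    Module.finrank k (LL k D) ≤ Module.finrank k (LL k E) :=
  Submodule.finrank_mono (LL_mono h)

theorem l_zero : Module.finrank k (LL k (0 : Plk k F →₀ ℤ)) = 1 := by
  have h : LL k (0 : Plk k F →₀ ℤ) = Submodule.span k {(1 : F)} := by
    refine le_antisymm CL_zero_le_span ?_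
    rw [Submodule.span_singleton_le_iff_mem]
    refine mem_LL.2 (Or.inr fun P => ?_)
    rw [ord_one, Finsupp.zero_apply, neg_zero]
  rw [h]
  exact finrank_span_singleton one_ne_zero

/-- the dimension of `LL k D` jumps by one if there is a new element, and not otherwise. -/
theorem l_step_of_mem {D : Plk k F →₀ ℤ} {P : Plk k F} {z : F}
    (hz : z ∈ LL k (D + Finsupp.single P 1)) (hz' : z ∉ LL k D) :
    Module.finrank k (LL k (D + Finsupp.single P 1)) = Module.finrank k (LL k D) + 1 := by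
  have hz0 : z ≠ 0 := fun h => hz' (by rw [h]; exact Submodule.zero_mem _)
  have h1 : LL k (D + Finsupp.single P 1) = LL k D ⊔ Submodule.span k {z} := by
    refine le_antisymm (CL_le_sup hz hz') (sup_le (LL_mono (CL_le_single D P)) ?_)
    rw [Submodule.span_singleton_le_iff_mem]
    exact hz
  have h2 : LL k D ⊓ Submodule.span k {z} = ⊥ := by
    rw [Submodule.eq_bot_iff]
    rintro w ⟨hw1, hw2⟩
    obtain ⟨a, rfl⟩ := Submodule.mem_span_singleton.1 hw2
    by_cases ha : a = 0
    · rw [ha, zero_smul]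
    · exfalso
      apply hz'
      have h3 := Submodule.smul_mem (LL k D) a⁻¹ hw1
      rwa [smul_smul, inv_mul_cancel₀ ha, one_smul] at h3
  have h3 := Submodule.finrank_sup_add_finrank_inf_eq (LL k D) (Submodule.span k {z})
  rw [h2, finrank_bot, add_zero, finrank_span_singleton hz0] at h3
  rw [h1]
  exact h3

theorem l_step_of_eq {D : Plk k F →₀ ℤ} {P : Plk k F}
    (h : LL k (D + Finsupp.single P 1) ≤ LL k D) :
    Module.finrank k (LL k (D + Finsupp.single P 1)) = Module.finrank k (LL k D) :=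
  le_antisymm (Submodule.finrank_mono h) (l_mono (CL_le_single D P))

/-- `l(E) - l(D) ≤ deg E - deg D`. -/
theorem l_sub_le {D E : Plk k F →₀ ℤ} (h : D ≤ E) :
    (Module.finrank k (LL k E) : ℤ) - Module.finrank k (LL k D) ≤ dg E - dg D := by
  refine dv_induct (motive := fun E => (Module.finrank k (LL k E) : ℤ) -
    Module.finrank k (LL k D) ≤ dg E - dg D) (D := D) ?_ ?_ h
  · simp
  · intro E P _ ih
    have h1 : dg (E + Finsupp.single P 1) = dg E + 1 := by
      rw [map_add, dg_sgl]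
    rw [h1]
    by_cases h : LL k (E + Finsupp.single P 1) ≤ LL k E
    · rw [l_step_of_eq h]
      omega
    · obtain ⟨z, hz, hz'⟩ := Set.not_subset.1 h
      rw [l_step_of_mem hz hz']
      push_cast
      omega

/-- linear equivalence. -/
theorem mul_mem_LL_iff {D : Plk k F →₀ ℤ} {z w : F} (hz : z ≠ 0) :
    z * w ∈ LL k D ↔ w ∈ LL k (D + dv k z) := by
  rw [mem_LL, mem_LL, mul_eq_zero, or_iff_right_of_imp (a := z = 0) (fun h => absurd h hz)]
  by_cases hw : w = 0
  · simp [hw]
  · simp only [hw, false_or]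
    refine forall_congr' fun P => ?_
    rw [ord_mul P hz hw, Finsupp.add_apply, dv_apply]
    omega

theorem l_add_dv (D : Plk k F →₀ ℤ) {z : F} (hz : z ≠ 0) :
    Module.finrank k (LL k (D + dv k z)) = Module.finrank k (LL k D) := by
  have h1 : (LL k (D + dv k z)).map (LinearMap.mulLeft k z) = LL k D := by
    ext w
    rw [Submodule.mem_map]
    constructor
    · rintro ⟨u, hu, rfl⟩
      rw [LinearMap.mulLeft_apply]
      exact (mul_mem_LL_iff hz).2 hu
    · intro hw
      refine ⟨z⁻¹ * w, ?_, ?_⟩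
      · rw [← mul_mem_LL_iff hz, mul_inv_cancel_left₀ hz]
        exact hw
      · rw [LinearMap.mulLeft_apply, mul_inv_cancel_left₀ hz]
  have hinj : Function.Injective (LinearMap.mulLeft k z) := by
    intro u v huv
    rw [LinearMap.mulLeft_apply, LinearMap.mulLeft_apply] at huv
    exact mul_left_cancel₀ hz huv
  rw [← h1]
  exact (LinearEquiv.finrank_eq (Submodule.equivMapOfInjective _ hinj _))

/-- a nonzero element of `LL k D` gives an effective divisor. -/
theorem exists_ne_zero_of_l {D : Plk k F →₀ ℤ} (h : 0 < Module.finrank k (LL k D)) :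
    ∃ z : F, z ≠ 0 ∧ 0 ≤ D + dv k z := by
  have hne : LL k D ≠ ⊥ := by
    intro hb
    rw [hb, finrank_bot] at h
    exact lt_irrefl _ h
  obtain ⟨z, hz, hz0⟩ := Submodule.exists_mem_ne_zero_of_ne_bot hne
  refine ⟨z, hz0, fun P => ?_⟩
  have h1 := ((mem_LL.1 hz).resolve_left hz0) P
  rw [Finsupp.zero_apply, Finsupp.add_apply, dv_apply]
  omega

end

end Vale.Agent.P298.FF
end
end

section

section

/-!
# The degree of a principal divisor is zero
-/

namespace Vale.Agent.P298.FF

open IntermediateField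

section

variable {k F : Type*} [Field k] [Field F] [Algebra k F] [CFF k F]

variable (k) in
/-- the divisor of poles. -/
noncomputable def pol (x : F) : Plk k F →₀ ℤ :=
  (dv k x).mapRange (fun n => max 0 (-n)) (by simp)

theorem pol_apply (x : F) (P : Plk k F) : pol k x P = max 0 (-ord P x) := by
  rw [pol, Finsupp.mapRange_apply, dv_apply]

theorem pol_nonneg (x : F) : 0 ≤ pol k x := by
  intro P
  rw [pol_apply]
  exact le_max_left _ _

theorem dv_eq_pol_sub (x : F) : dv k x = pol k x⁻¹ - pol k x := by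
  ext P
  rw [Finsupp.sub_apply, pol_apply, pol_apply, dv_apply, ord_inv]
  omega

/-- the elements `x ^ j * u i`, for a basis `u` over `k(x)`, lie in the Riemann-Roch space of a
divisor close to `r` times the divisor of poles. -/
theorem cDeg_mem {x : F} (hx : x ≠ 0) {ι : Type*} [Fintype ι] {u : ι → F} (hu : ∀ i, u i ≠ 0)
    {r j : ℕ} (hj : j ≤ r) (i : ι) :
    x ^ j * u i ∈ LL k (r • pol k x + ∑ i, pol k (u i)) := by
  right
  intro P
  rw [ord_mul P (pow_ne_zero _ hx) (hu i), ord_pow, Finsupp.add_apply, Finsupp.smul_apply,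
    pol_apply, Finsupp.finsetSum_apply, nsmul_eq_mul]
  have h1 : pol k (u i) P ≤ ∑ i, pol k (u i) P :=
    Finset.single_le_sum (f := fun i => pol k (u i) P) (fun i _ => pol_nonneg (u i) P)
      (Finset.mem_univ i)
  rw [pol_apply] at h1
  have h2 : (j : ℤ) * -(max 0 (-ord P x)) ≤ j * ord P x :=
    mul_le_mul_of_nonneg_left (by omega) (Int.natCast_nonneg j)
  have h3 : (j : ℤ) * max 0 (-ord P x) ≤ r * max 0 (-ord P x) :=
    mul_le_mul_of_nonneg_right (by exact_mod_cast hj) (le_max_left _ _)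
  rw [mul_neg] at h2
  omega

/-- a lower bound for the dimensions of the Riemann-Roch spaces of the multiples of the divisor of
poles. -/
theorem cDeg_lower {x : F} (hx : ∀ a : k, x ≠ algebraMap k F a) :
    ∃ C : ℤ, ∀ r : ℕ, (r + 1) * (Module.finrank k⟮x⟯ F : ℤ) - C ≤
      Module.finrank k (LL k (r • pol k x)) := by
  obtain ⟨hx1, hx2⟩ := finite_of_notMem hx
  have hx0 : x ≠ 0 := fun h => hx 0 (by rw [h, map_zero])
  set u := Module.finBasis k⟮x⟯ F with hu
  have hu0 : ∀ i, u i ≠ 0 := fun i => u.ne_zero i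
  refine ⟨dg (∑ i, pol k (u i)), fun r => ?_⟩
  have h1 := l_sub_le (k := k) (D := r • pol k x) (E := r • pol k x + ∑ i, pol k (u i))
    (le_add_of_nonneg_right (Finset.sum_nonneg fun i _ => pol_nonneg (u i)))
  rw [map_add] at h1
  have h2 := indep_pow_mul hx1 u.linearIndependent
  let e : Fin (Module.finrank k⟮x⟯ F) × Fin (r + 1) → Fin (Module.finrank k⟮x⟯ F) × ℕ :=
    fun p => (p.1, p.2)
  have he : Function.Injective e := by
    rintro ⟨a, b⟩ ⟨c, d⟩ h
    rw [Prod.mk.injEq] at h ⊢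
    exact ⟨h.1, Fin.ext h.2⟩
  have h3 := h2.comp e he
  have h4 : LinearIndependent k (fun p : Fin (Module.finrank k⟮x⟯ F) × Fin (r + 1) =>
      (⟨x ^ (p.2 : ℕ) * u p.1, cDeg_mem hx0 hu0 (Nat.lt_succ_iff.1 p.2.2) p.1⟩ :
        LL k (r • pol k x + ∑ i, pol k (u i)))) :=
    LinearIndependent.of_comp (LL k (r • pol k x + ∑ i, pol k (u i))).subtype h3
  have h5 := h4.fintype_card_le_finrank
  rw [Fintype.card_prod, Fintype.card_fin, Fintype.card_fin] at h5
  have h6 : (Module.finrank k⟮x⟯ F : ℤ) * (r + 1) ≤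
      Module.finrank k (LL k (r • pol k x + ∑ i, pol k (u i))) := by exact_mod_cast h5
  rw [mul_comm] at h6
  omega

omit [CFF k F] in
theorem cDeg_finrank_inv (x : F) : Module.finrank k⟮x⁻¹⟯ F = Module.finrank k⟮x⟯ F := by
  rw [adjoin_inv_eq]

theorem dg_pol {x : F} (hx : ∀ a : k, x ≠ algebraMap k F a) :
    dg (pol k x) = Module.finrank k⟮x⟯ F := by
  apply le_antisymm
  · have h1 := sum_ord_le (nc_inv hx) (pol k x).support fun P hP => by
      rw [Finsupp.mem_support_iff, pol_apply] at hP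
      rw [ord_inv]
      omega
    rw [cDeg_finrank_inv] at h1
    rw [dg_eq_sum (S := (pol k x).support) fun P hP => Finsupp.notMem_support_iff.1 hP]
    refine le_trans (le_of_eq (Finset.sum_congr rfl fun P hP => ?_)) h1
    rw [Finsupp.mem_support_iff, pol_apply] at hP
    rw [pol_apply, ord_inv]
    omega
  · obtain ⟨C, hC⟩ := cDeg_lower hx
    by_contra hlt
    rw [not_le] at hlt
    have h0 : (0 : ℤ) ≤ dg (pol k x) := by
      have := dg_mono (pol_nonneg (k := k) x)
      rwa [map_zero] at this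
    have h1 := hC (C.toNat + 1)
    have h2 := l_sub_le (k := k) (D := 0) (E := (C.toNat + 1) • pol k x)
      (nsmul_nonneg (pol_nonneg x) _)
    rw [l_zero, map_nsmul, map_zero, nsmul_eq_mul, Nat.cast_one] at h2
    push_cast at h1 h2
    have h3 : C ≤ C.toNat := Int.self_le_toNat C
    have h4 : ((C.toNat : ℤ) + 1 + 1) * (dg (pol k x) + 1) ≤
        (C.toNat + 1 + 1) * (Module.finrank k⟮x⟯ F : ℤ) :=
      mul_le_mul_of_nonneg_left (by omega) (by omega)
    have h5 : ((C.toNat : ℤ) + 1 + 1) * (dg (pol k x) + 1) =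
      (C.toNat + 1) * dg (pol k x) + dg (pol k x) + C.toNat + 2 := by ring
    omega

/-- Riemann's lower bound for the multiples of the divisor of poles. -/
theorem exists_l_pol {x : F} (hx : ∀ a : k, x ≠ algebraMap k F a) :
    ∃ C : ℤ, ∀ r : ℕ, r * (Module.finrank k⟮x⟯ F : ℤ) - C ≤
      Module.finrank k (LL k (r • pol k x)) := by
  obtain ⟨C, hC⟩ := cDeg_lower hx
  refine ⟨C, fun r => ?_⟩
  have h1 := hC r
  rw [add_mul, one_mul] at h1
  omega

theorem dg_dv (z : F) : dg (dv k z) = 0 := by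
  by_cases hz : ∃ a : k, z = algebraMap k F a
  · obtain ⟨a, rfl⟩ := hz
    rw [dv_const, map_zero]
  · rw [not_exists] at hz
    rw [dv_eq_pol_sub, map_sub, dg_pol (nc_inv hz), dg_pol hz, cDeg_finrank_inv, sub_self]

/-- the degree of the fibre. -/
theorem fib_sum {x : F} (hx : ∀ a : k, x ≠ algebraMap k F a) (c : k) :
    ∑ P ∈ (fib_finite hx c).toFinset, ord P (x - algebraMap k F c) = Module.finrank k⟮x⟯ F := by
  have h1 := dg_pol (nc_inv (nc_sub hx c))
  rw [cDeg_finrank_inv, adjoin_sub_eq, dg_eq_sum (S := (fib_finite hx c).toFinset)] at h1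
  · rw [← h1]
    refine Finset.sum_congr rfl fun P hP => ?_
    rw [Set.Finite.mem_toFinset, Set.mem_ofPred_eq] at hP
    rw [pol_apply, ord_inv]
    omega
  · intro P hP
    rw [Set.Finite.mem_toFinset, Set.mem_ofPred_eq] at hP
    rw [pol_apply, ord_inv]
    omega

theorem LL_eq_bot {D : Plk k F →₀ ℤ} (h : dg D < 0) : LL k D = ⊥ := by
  rw [eq_bot_iff]
  rintro z (hz | hz)
  · exact hz
  · exfalso
    have h1 : 0 ≤ D + dv k z := by
      intro P
      have h2 := hz P
      rw [Finsupp.add_apply, dv_apply, Finsupp.zero_apply]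
      omega
    have h3 := dg_mono h1
    rw [map_zero, map_add, dg_dv, add_zero] at h3
    omega

theorem l_eq_zero {D : Plk k F →₀ ℤ} (h : dg D < 0) : Module.finrank k (LL k D) = 0 := by
  rw [LL_eq_bot h, finrank_bot]

variable (k F) in
/-- divisors of large degree. -/
theorem exists_dg_eq (n : ℤ) : ∃ D : Plk k F →₀ ℤ, dg D = n := by
  obtain ⟨P⟩ := nonempty_Plk k F
  exact ⟨Finsupp.single P n, dg_sgl P n⟩

end

end Vale.Agent.P298.FF
end
end
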