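import Vale.Agent.P298.H272.FF2

/-!
The trace over the rational function field of a function which is regular at all zeros
of `x`: it is regular at `x = 0`, with value the sum of the values times the multiplicities.
-/

set_option linter.all false

namespace Vale.Agent.P298.FF

open Polynomial IntermediateField

section tr

variable {k F : Type*} [Field k] [Field F] [Algebra k F]

variable (k) in
/-- the trace over `k(x)`, as an element of `F`. -/
noncomputable def Tx (x : F) : F →ₗ[k] F :=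
  (IntermediateField.val k⟮x⟯).toLinearMap ∘ₗ (Algebra.trace k⟮x⟯ F).restrictScalars k

theorem Tx_apply (x u : F) : Tx k x u = algebraMap k⟮x⟯ F (Algebra.trace k⟮x⟯ F u) := rfl

theorem Tx_congr_aux {K₁ K₂ : IntermediateField k F} (h : K₁ = K₂) (u : F) :
    algebraMap K₁ F (Algebra.trace K₁ F u) = algebraMap K₂ F (Algebra.trace K₂ F u) := by
  subst h; rfl

theorem Tx_inv (x u : F) : Tx k x⁻¹ u = Tx k x u := Tx_congr_aux (adjoin_inv_eq x) u

theorem Tx_sub (x : F) (a : k) (u : F) : Tx k (x - algebraMap k F a) u = Tx k x u :=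
  Tx_congr_aux (adjoin_sub_eq x a) u

theorem Tx_mul (x u : F) (r : k⟮x⟯) : Tx k x ((r : F) * u) = r * Tx k x u := by
  rw [Tx_apply, Tx_apply]
  have h : (r : F) * u = r • u := rfl
  rw [h, map_smul, smul_eq_mul, map_mul]
  rfl

theorem Tx_x_mul (x u : F) : Tx k x (x * u) = x * Tx k x u :=
  Tx_mul x u (AdjoinSimple.gen k x)

theorem Tx_sub_mul (x u : F) (a : k) : Tx k x ((x - algebraMap k F a) * u) =
    (x - algebraMap k F a) * Tx k x u :=
  Tx_mul x u (AdjoinSimple.gen k x - algebraMap k k⟮x⟯ a)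

/-- `r` is a rational function of `x`, regular at `x = 0` with value `c`. -/
def RegAt (x r : F) (c : k) : Prop :=
  ∃ f g : k[X], g.coeff 0 ≠ 0 ∧ r * aeval x g = aeval x f ∧ f.coeff 0 = g.coeff 0 * c

theorem RegAt.zero (x : F) : RegAt x 0 (0 : k) := ⟨0, 1, by simp, by simp, by simp⟩

theorem RegAt.add {x r s : F} {c d : k} (h : RegAt x r c) (h' : RegAt x s d) :
    RegAt x (r + s) (c + d) := by
  obtain ⟨f, g, h1, h2, h3⟩ := h
  obtain ⟨f', g', h1', h2', h3'⟩ := h'
  refine ⟨f * g' + f' * g, g * g', ?_, ?_, ?_⟩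
  · rw [mul_coeff_zero]; exact mul_ne_zero h1 h1'
  · rw [map_mul, map_add, map_mul, map_mul, ← h2, ← h2']; ring
  · rw [coeff_add, mul_coeff_zero, mul_coeff_zero, mul_coeff_zero, h3, h3']; ring

theorem RegAt.sum {x : F} {ι : Type*} {s : Finset ι} {r : ι → F} {c : ι → k}
    (h : ∀ i ∈ s, RegAt x (r i) (c i)) : RegAt x (∑ i ∈ s, r i) (∑ i ∈ s, c i) := by
  classical
  induction s using Finset.induction_on with
  | empty => rw [Finset.sum_empty, Finset.sum_empty]; exact RegAt.zero x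
  | insert a s ha ih =>
    rw [Finset.sum_insert ha, Finset.sum_insert ha]
    exact (h a (Finset.mem_insert_self a s)).add
      (ih fun i hi => h i (Finset.mem_insert_of_mem hi))

end tr

section basis

variable {k F : Type*} [Field k] [Field F] [Algebra k F] [CFF k F]

/-- the family of test functions at the zeros of `x`. -/
structure ZB (x : F) (S : Finset (Plk k F))
    (w : ((P : S) × Fin (ord P.1 x).toNat) → F) : Prop where
  ne : ∀ i, w i ≠ 0
  eq : ∀ i, ord i.1.1 (w i) = ((i.2 : ℕ) : ℤ)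
  ot : ∀ i (Q : S), Q ≠ i.1 → ord Q.1 (w i) = ord Q.1 x

theorem exists_ZB (x : F) (S : Finset (Plk k F)) : ∃ w, ZB x S w := by
  classical
  choose w hw0 hw using fun i : (P : S) × Fin (ord P.1 x).toNat =>
    exists_ord_eq S (fun Q => if Q = i.1.1 then ((i.2 : ℕ) : ℤ) else ord Q x)
  refine ⟨w, hw0, fun i => by rw [hw i _ i.1.2, if_pos rfl], fun i Q hQ => ?_⟩
  rw [hw i _ Q.2, if_neg]
  exact fun h => hQ (Subtype.ext h)

theorem ZB.mem {x : F} {S : Finset (Plk k F)} {w : ((P : S) × Fin (ord P.1 x).toNat) → F}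
    (hw : ZB x S w) (hS : ∀ P ∈ S, 0 < ord P x) (i) (Q : S) : w i ∈ Mge Q.1 0 := by
  by_cases h : Q = i.1
  · subst h
    exact Or.inr (by rw [hw.eq]; exact Int.natCast_nonneg _)
  · exact Or.inr (by rw [hw.ot i Q h]; exact (hS Q.1 Q.2).le)

/-- graded independence. -/
theorem ZB.indep {x : F} {S : Finset (Plk k F)} {w : ((P : S) × Fin (ord P.1 x).toNat) → F}
    (hw : ZB x S w) (hS : ∀ P ∈ S, 0 < ord P x) (ψ : ((P : S) × Fin (ord P.1 x).toNat) → k[X])
    (P : S) {m : ℤ} (hm : m ≤ ord P.1 x)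
    (h : ∑ i, aeval x (ψ i) * w i ∈ Mge P.1 m) (b : Fin (ord P.1 x).toNat)
    (hb : ((b : ℕ) : ℤ) < m) : (ψ ⟨P, b⟩).coeff 0 = 0 := by
  classical
  by_contra hne
  obtain ⟨a, ha, hmin⟩ := Finset.exists_min_image
    (Finset.univ.filter fun a : Fin (ord P.1 x).toNat => (ψ ⟨P, a⟩).coeff 0 ≠ 0)
    (fun a => (a : ℕ)) ⟨b, by simp only [Finset.mem_filter, Finset.mem_univ, true_and]; exact hne⟩
  rw [Finset.mem_filter] at ha
  have hPx : 0 < ord P.1 x := hS P.1 P.2
  have hax : ((a : ℕ) : ℤ) < ord P.1 x := by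
    have h1 := a.2
    omega
  have hab : (a : ℕ) ≤ (b : ℕ) :=
    hmin b (by simp only [Finset.mem_filter, Finset.mem_univ, true_and]; exact hne)
  obtain ⟨h1, h2⟩ := ord_aeval_of_coeff_ne hPx ha.2
  have h3 : aeval x (ψ ⟨P, a⟩) * w ⟨P, a⟩ ≠ 0 := mul_ne_zero h1 (hw.ne _)
  have h4 : ord P.1 (aeval x (ψ ⟨P, a⟩) * w ⟨P, a⟩) = ((a : ℕ) : ℤ) := by
    rw [ord_mul P.1 h1 (hw.ne _), h2, zero_add]
    exact hw.eq ⟨P, a⟩
  have key := ord_sum_of_lt (P := P.1) (s := Finset.univ)
    (f := fun i => aeval x (ψ i) * w i) (i := ⟨P, a⟩) (Finset.mem_univ _) h3 (by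
      rintro ⟨Q, d⟩ - hne
      rw [h4]
      by_cases hQ : Q = P
      · subst hQ
        have hd : w ⟨Q, d⟩ ∈ Mge Q.1 ((d : ℕ) : ℤ) := Or.inr (hw.eq ⟨Q, d⟩).ge
        by_cases hc : (ψ ⟨Q, d⟩).coeff 0 = 0
        · have h5 := mul_mem_Mge (aeval_mem_of_coeff_eq hPx hc) hd
          exact Mge_mono _ (by omega) h5
        · have h5 := mul_mem_Mge (aeval_mem_zero hPx.le (ψ ⟨Q, d⟩)) hd
          have h6 := hmin d (by simp only [Finset.mem_filter, Finset.mem_univ, true_and]; exact hc)
          have h7 : (d : ℕ) ≠ (a : ℕ) := fun h8 => hne (by rw [Fin.ext h8])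
          exact Mge_mono _ (by omega) h5
      · have hd : w ⟨Q, d⟩ ∈ Mge P.1 (ord P.1 x) := by
          refine Or.inr (le_of_eq ?_)
          rw [hw.ot ⟨Q, d⟩ P (fun h => hQ h.symm)]
        have h5 := mul_mem_Mge (aeval_mem_zero hPx.le (ψ ⟨Q, d⟩)) hd
        exact Mge_mono _ (by omega) h5)
  have h8 := h.resolve_left key.1
  rw [key.2, h4] at h8
  omega

theorem ZB.linind {x : F} {S : Finset (Plk k F)} {w : ((P : S) × Fin (ord P.1 x).toNat) → F}
    (hw : ZB x S w) (hS : ∀ P ∈ S, 0 < ord P x) (hT : Transcendental k x) :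
    LinearIndependent k⟮x⟯ w := by
  by_contra hnot
  obtain ⟨φ, ⟨⟨P, a⟩, h0⟩, hrel⟩ := exists_rel hT hnot
  refine h0 (hw.indep hS φ P (m := ord P.1 x) le_rfl ?_ a ?_)
  · rw [hrel]; exact Submodule.zero_mem _
  · have := a.2
    omega

theorem card_ZB (x : F) (S : Finset (Plk k F)) (hS : ∀ P ∈ S, 0 < ord P x) :
    (Fintype.card ((P : S) × Fin (ord P.1 x).toNat) : ℤ) = ∑ P ∈ S, ord P x := by
  have h1 : Fintype.card ((P : S) × Fin (ord P.1 x).toNat) = ∑ P ∈ S, (ord P x).toNat := by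
    rw [Fintype.card_sigma, ← Finset.sum_coe_sort S]
    simp only [Fintype.card_fin]
  rw [h1, Nat.cast_sum]
  exact Finset.sum_congr rfl fun P hP => (Int.toNat_of_nonneg (hS P hP).le)

/-- the zeros of `x`. -/
noncomputable def zs {x : F} (hx : ∀ a : k, x ≠ algebraMap k F a) : Finset (Plk k F) :=
  (zeros_finite hx).toFinset

theorem mem_zs {x : F} (hx : ∀ a : k, x ≠ algebraMap k F a) {P : Plk k F} :
    P ∈ zs hx ↔ 0 < ord P x := by
  rw [zs, Set.Finite.mem_toFinset]; rfl

theorem sum_zs {x : F} (hx : ∀ a : k, x ≠ algebraMap k F a) :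
    ∑ P ∈ zs hx, ord P x = Module.finrank k⟮x⟯ F := by
  have h := fib_sum hx (0 : k)
  have e : x - algebraMap k F 0 = x := by rw [map_zero, sub_zero]
  have hz : zs hx = (fib_finite hx (0 : k)).toFinset := by
    ext P
    rw [mem_zs, Set.Finite.mem_toFinset]
    show _ ↔ 0 < ord P (x - algebraMap k F 0)
    rw [e]
  rw [hz, ← h]
  refine Finset.sum_congr rfl fun P _ => ?_
  rw [e]

theorem card_zs {x : F} (hx : ∀ a : k, x ≠ algebraMap k F a) :
    Fintype.card ((P : zs hx) × Fin (ord P.1 x).toNat) = Module.finrank k⟮x⟯ F := by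
  have h1 := card_ZB x (zs hx) (fun P hP => (mem_zs hx).1 hP)
  rw [sum_zs hx] at h1
  exact_mod_cast h1

/-- expansion of a function regular at the zeros of `x`. -/
theorem ZB.expand {x : F} (hx : ∀ a : k, x ≠ algebraMap k F a)
    {w : ((P : zs hx) × Fin (ord P.1 x).toNat) → F} (hw : ZB x (zs hx) w) {v : F}
    (hv : ∀ P ∈ zs hx, v ∈ Mge P 0) :
    ∃ (g : k[X]) (φ : ((P : zs hx) × Fin (ord P.1 x).toNat) → k[X]), g.coeff 0 ≠ 0 ∧
      v * aeval x g = ∑ i, aeval x (φ i) * w i := by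
  classical
  obtain ⟨hT, hfd⟩ := finite_of_notMem hx
  have hS : ∀ P ∈ zs hx, 0 < ord P x := fun P hP => (mem_zs hx).1 hP
  have hnot : ¬ LinearIndependent k⟮x⟯
      (fun o : Option ((P : zs hx) × Fin (ord P.1 x).toNat) => o.elim v w) := by
    intro h
    have h1 := h.fintype_card_le_finrank
    rw [Fintype.card_option, card_zs hx] at h1
    omega
  obtain ⟨φ, ⟨o, ho⟩, hrel⟩ := exists_rel hT hnot
  rw [Fintype.sum_option] at hrel
  simp only [Option.elim_none, Option.elim_some] at hrel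
  refine ⟨φ none, fun i => -φ (some i), ?_, ?_⟩
  · intro h0
    have h1 : ∀ i, (φ (some i)).coeff 0 = 0 := by
      rintro ⟨P, a⟩
      refine hw.indep hS (fun i => φ (some i)) P (m := ord P.1 x) le_rfl ?_ a (by
        have := a.2
        omega)
      have h2 : ∑ i, aeval x (φ (some i)) * w i = -(aeval x (φ none) * v) :=
        eq_neg_of_add_eq_zero_right hrel
      rw [h2]
      refine Submodule.neg_mem _ ?_
      have h3 := mul_mem_Mge (aeval_mem_of_coeff_eq (hS P.1 P.2) h0) (hv P.1 P.2)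
      rwa [add_zero] at h3
    cases o with
    | none => exact ho h0
    | some i => exact ho (h1 i)
  · simp only [map_neg, neg_mul, Finset.sum_neg_distrib]
    rw [← eq_neg_of_add_eq_zero_left hrel, mul_comm]

/-- the trace lemma. -/
theorem trace_reg {x : F} (hx : ∀ a : k, x ≠ algebraMap k F a) {u : F} (c : Plk k F → k)
    (hu : ∀ P, 0 < ord P x → u - algebraMap k F (c P) ∈ Mge P 1) :
    RegAt x (Tx k x u) (∑ P ∈ zs hx, (ord P x).toNat • c P) := by
  classical
  obtain ⟨hT, hfd⟩ := finite_of_notMem hx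
  have hS : ∀ P ∈ zs hx, 0 < ord P x := fun P hP => (mem_zs hx).1 hP
  obtain ⟨w, hw⟩ := exists_ZB x (zs hx)
  have hli := hw.linind hS hT
  have hu0 : ∀ P ∈ zs hx, u ∈ Mge P 0 := by
    intro P hP
    have h1 := Mge_mono P (show (0 : ℤ) ≤ 1 by omega) (hu P (hS P hP))
    have h2 : algebraMap k F (c P) ∈ Mge P 0 := Or.inr (by rw [ord_const])
    have h3 := Submodule.add_mem _ h1 h2
    rwa [sub_add_cancel] at h3
  have hex := fun j => hw.expand hx (v := u * w j) (fun P hP => by
    have h1 := mul_mem_Mge (hu0 P hP) (hw.mem hS j ⟨P, hP⟩)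
    rwa [add_zero] at h1)
  choose g φ hg hφ using hex
  have hne : Nonempty ((P : zs hx) × Fin (ord P.1 x).toNat) := by
    rw [← Fintype.card_pos_iff, card_zs hx]
    exact Module.finrank_pos
  let b := basisOfLinearIndependentOfCardEqFinrank hli (card_zs hx)
  have hb : ∀ i, b i = w i := fun i => by
    simp only [b, coe_basisOfLinearIndependentOfCardEqFinrank]
  let ι : k[X] → k⟮x⟯ := fun p => aeval (AdjoinSimple.gen k x) p
  have hι : ∀ p, algebraMap k⟮x⟯ F (ι p) = aeval x p := fun p => by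
    simp only [ι]
    rw [← aeval_algebraMap_apply, AdjoinSimple.algebraMap_gen]
  have hdiag : ∀ j, RegAt x (algebraMap k⟮x⟯ F (Algebra.leftMulMatrix b u j j)) (c j.1.1) := by
    intro j
    refine ⟨φ j j, g j, hg j, ?_, ?_⟩
    · have h1 : (ι (g j)) • (u * b j) = ∑ i, (ι (φ j i)) • b i := by
        simp only [Algebra.smul_def, hι, hb]
        rw [mul_comm, hφ]
      have h2 : b.repr ((ι (g j)) • (u * b j)) j = ι (φ j j) := by
        rw [h1, b.repr_sum_self]
      rw [map_smul, Finsupp.smul_apply, smul_eq_mul] at h2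
      rw [Algebra.leftMulMatrix_eq_repr_mul, ← hι, ← hι, ← map_mul, mul_comm, h2]
    · have hj := hw.indep hS
        (fun i => φ j i - if i = j then C (c j.1.1) * g j else 0) j.1
        (m := ((j.2 : ℕ) : ℤ) + 1) (by have := j.2.2; omega) ?_ j.2 (by omega)
      · have hjj : (⟨j.1, j.2⟩ : (P : zs hx) × Fin (ord P.1 x).toNat) = j := rfl
        rw [hjj] at hj
        simp only [if_true] at hj
        rw [coeff_sub, coeff_C_mul, sub_eq_zero] at hj
        rw [hj, mul_comm]
      · have h3 : ∑ i, aeval x (φ j i - if i = j then C (c j.1.1) * g j else 0) * w i =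
            (u - algebraMap k F (c j.1.1)) * (w j * aeval x (g j)) := by
          have h4 : ∀ i, aeval x (φ j i - if i = j then C (c j.1.1) * g j else 0) * w i =
              aeval x (φ j i) * w i -
                (if i = j then algebraMap k F (c j.1.1) * aeval x (g j) * w i else 0) := by
            intro i
            by_cases h : i = j
            · rw [if_pos h, if_pos h, map_sub, map_mul, aeval_C]; ring
            · rw [if_neg h, if_neg h, sub_zero, sub_zero]
          rw [Finset.sum_congr rfl fun i _ => h4 i, Finset.sum_sub_distrib, ← hφ,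
            Finset.sum_ite_eq' Finset.univ j, if_pos (Finset.mem_univ _)]
          ring
        rw [h3]
        have h5 := mul_mem_Mge (hu j.1.1 (hS _ j.1.2))
          (mul_mem_Mge (show w j ∈ Mge j.1.1 ((j.2 : ℕ) : ℤ) from Or.inr (hw.eq j).ge)
            (aeval_mem_zero (hS _ j.1.2).le (g j)))
        exact Mge_mono _ (by omega) h5
  have h6 : Tx k x u = ∑ j, algebraMap k⟮x⟯ F (Algebra.leftMulMatrix b u j j) := by
    rw [Tx_apply, Algebra.trace_eq_matrix_trace b, Matrix.trace, map_sum]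
    rfl
  have h7 : ∑ P ∈ zs hx, (ord P x).toNat • c P =
      ∑ j : ((P : zs hx) × Fin (ord P.1 x).toNat), c j.1.1 := by
    rw [Fintype.sum_sigma, ← Finset.sum_coe_sort (zs hx)]
    refine Finset.sum_congr rfl fun P _ => ?_
    show _ = ∑ _y : Fin (ord P.1 x).toNat, c P.1
    rw [Finset.sum_const, Finset.card_univ, Fintype.card_fin]
  rw [h6, h7]
  exact RegAt.sum fun j _ => hdiag j

end basis

end Vale.Agent.P298.FF
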