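import Vale.Agent.P298.H272.Hur1

/-!
The divisor of the differential `dx` has degree `2 g - 2` (characteristic zero).
-/

set_option linter.all false

namespace Vale.Agent.P298.FF

open Polynomial IntermediateField

section rho

variable {k F : Type*} [Field k] [Field F] [Algebra k F]

variable (k) in
/-- the sum of the polynomials in `x` and the rational functions vanishing to order at least two
at infinity. -/
def URho (x : F) : Submodule k F where
  carrier := {r | ∃ q f g : k[X], g ≠ 0 ∧ (f = 0 ∨ f.natDegree + 2 ≤ g.natDegree) ∧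
    (r - aeval x q) * aeval x g = aeval x f}
  zero_mem' := ⟨0, 0, 1, one_ne_zero, Or.inl rfl, by simp⟩
  add_mem' := by
    rintro r s ⟨q, f, g, h1, h2, h3⟩ ⟨q', f', g', h1', h2', h3'⟩
    refine ⟨q + q', f * g' + f' * g, g * g', mul_ne_zero h1 h1', ?_, ?_⟩
    · by_cases hs : f * g' + f' * g = 0
      · exact Or.inl hs
      right
      rw [natDegree_mul h1 h1']
      have a1 : f * g' = 0 ∨ (f * g').natDegree + 2 ≤ g.natDegree + g'.natDegree := by
        rcases h2 with h | h
        · left; rw [h, zero_mul]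
        · right
          have := natDegree_mul_le (p := f) (q := g')
          omega
      have a2 : f' * g = 0 ∨ (f' * g).natDegree + 2 ≤ g.natDegree + g'.natDegree := by
        rcases h2' with h | h
        · left; rw [h, zero_mul]
        · right
          have := natDegree_mul_le (p := f') (q := g)
          omega
      have a3 := natDegree_add_le (f * g') (f' * g)
      rcases a1 with a1 | a1
      · rcases a2 with a2 | a2
        · exact absurd (by rw [a1, a2, add_zero]) hs
        · rw [a1, zero_add]; exact a2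
      · rcases a2 with a2 | a2
        · rw [a2, add_zero]; exact a1
        · omega
    · rw [map_add, map_mul, map_add, map_mul, map_mul, ← h3, ← h3']; ring
  smul_mem' := by
    rintro a r ⟨q, f, g, h1, h2, h3⟩
    refine ⟨C a * q, C a * f, g, h1, ?_, ?_⟩
    · rcases h2 with h | h
      · left; rw [h, mul_zero]
      · by_cases ha : a = 0
        · left; rw [ha, C_0, zero_mul]
        · right
          rw [natDegree_C_mul ha]
          exact h
    · rw [map_mul, map_mul, aeval_C, ← h3, Algebra.smul_def]; ring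

theorem inv_notMem_URho {x : F} (hx : Transcendental k x) : x⁻¹ ∉ URho k x := by
  rintro ⟨q, f, g, h1, h2, h3⟩
  have hx0 : x ≠ 0 := fun h0 => by
    rw [h0] at hx
    exact hx isAlgebraic_zero
  have h4 : aeval x (g * (1 - X * q)) = aeval x (X * f) := by
    rw [map_mul, map_mul, map_sub, map_mul, map_one, aeval_X, ← h3]
    field_simp
  have h5 := transcendental_iff_injective.1 hx h4
  have h6 : (1 - X * q : k[X]) ≠ 0 := by
    intro h
    have := congrArg (fun p => eval 0 p) h
    simp at this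
  have h7 := congrArg natDegree h5
  rw [natDegree_mul h1 h6] at h7
  rcases h2 with h | h
  · rw [h, mul_zero] at h5
    exact mul_ne_zero h1 h6 h5
  · have h8 := natDegree_mul_le (p := (X : k[X])) (q := f)
    rw [natDegree_X] at h8
    omega

theorem exists_rho {x : F} (hx : Transcendental k x) :
    ∃ ρ : F →ₗ[k] k, (∀ r ∈ URho k x, ρ r = 0) ∧ ρ x⁻¹ = 1 := by
  obtain ⟨f, hf, hf'⟩ := Submodule.exists_le_ker_of_notMem (inv_notMem_URho hx)
  refine ⟨(f x⁻¹)⁻¹ • f, fun r hr => ?_, ?_⟩
  · rw [LinearMap.smul_apply, show f r = 0 from hf' hr, smul_zero]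
  · rw [LinearMap.smul_apply, smul_eq_mul, inv_mul_cancel₀ hf]

theorem aeval_mem_URho (x : F) (q : k[X]) : aeval x q ∈ URho k x :=
  ⟨q, 0, 1, one_ne_zero, Or.inl rfl, by simp⟩

/-- a rational function which is regular at every finite point is a polynomial. -/
theorem poly_of_reg [IsAlgClosed k] {x r : F}
    (h : ∀ a : k, ∃ f g : k[X], g.eval a ≠ 0 ∧ r * aeval x g = aeval x f) :
    ∃ q : k[X], r = aeval x q := by
  let I : Ideal k[X] :=
    { carrier := {g | ∃ f : k[X], r * aeval x g = aeval x f}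
      zero_mem' := ⟨0, by simp⟩
      add_mem' := by
        rintro g g' ⟨f, hf⟩ ⟨f', hf'⟩
        exact ⟨f + f', by rw [map_add, map_add, mul_add, hf, hf']⟩
      smul_mem' := by
        rintro p g ⟨f, hf⟩
        refine ⟨p * f, ?_⟩
        rw [smul_eq_mul, map_mul, map_mul, ← hf]; ring }
  have hI : ∀ g, g ∈ I ↔ ∃ f : k[X], r * aeval x g = aeval x f := fun g => Iff.rfl
  obtain ⟨g₀, hg₀⟩ := (IsPrincipalIdealRing.principal I).principal
  have hd : ∀ g ∈ I, g₀ ∣ g := fun g hg => by
    rw [hg₀] at hg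
    exact Ideal.mem_span_singleton.1 hg
  have hg0 : g₀ ≠ 0 := by
    rintro h0
    obtain ⟨f, g, h1, h2⟩ := h 0
    have h3 := hd g ((hI g).2 ⟨f, h2⟩)
    rw [h0, zero_dvd_iff] at h3
    rw [h3] at h1
    exact h1 eval_zero
  have hdeg : g₀.degree = 0 := by
    by_contra hne
    obtain ⟨a, ha⟩ := IsAlgClosed.exists_root g₀ hne
    obtain ⟨f, g, h1, h2⟩ := h a
    obtain ⟨p, hp⟩ := hd g ((hI g).2 ⟨f, h2⟩)
    apply h1
    rw [hp, eval_mul, ha.eq_zero, zero_mul]
  have hmem : g₀ ∈ I := by
    rw [hg₀]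
    exact Ideal.mem_span_singleton_self g₀
  obtain ⟨f, hf⟩ := (hI g₀).1 hmem
  rw [eq_C_of_degree_eq_zero hdeg, aeval_C] at hf
  have hc : g₀.coeff 0 ≠ 0 := by
    intro h0
    apply hg0
    rw [eq_C_of_degree_eq_zero hdeg, h0, C_0]
  refine ⟨C (g₀.coeff 0)⁻¹ * f, ?_⟩
  rw [map_mul, aeval_C, ← hf, map_inv₀]
  have : algebraMap k F (g₀.coeff 0) ≠ 0 := by rwa [Ne, map_eq_zero]
  field_simp

/-- passing from `1/x` to `x`. -/
theorem aeval_reverse {x : F} (hx0 : x ≠ 0) (p : k[X]) (N : ℕ) (hN : p.natDegree ≤ N) :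
    ∃ q : k[X], aeval x q = x ^ N * aeval x⁻¹ p ∧ q.natDegree ≤ N ∧ q.coeff N = p.coeff 0 := by
  have hx1 : x⁻¹ ≠ 0 := inv_ne_zero hx0
  refine ⟨reflect N p, ?_, ?_, ?_⟩
  · letI : Invertible x⁻¹ := invertibleOfNonzero hx1
    have h := eval₂_reflect_mul_pow (algebraMap k F) x⁻¹ N p hN
    rw [invOf_eq_inv, inv_inv] at h
    rw [aeval_def, aeval_def, ← h, inv_pow, mul_comm (eval₂ _ _ _), ← mul_assoc,
      mul_inv_cancel₀ (pow_ne_zero _ hx0), one_mul]
  · refine natDegree_le_iff_coeff_eq_zero.2 fun n hn => ?_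
    rw [coeff_reflect, revAt_eq_self_of_lt hn]
    exact coeff_eq_zero_of_natDegree_lt (by omega)
  · rw [coeff_reflect, revAt_le le_rfl, Nat.sub_self]

end rho

section lam

variable {k F : Type*} [Field k] [Field F] [Algebra k F] [CFF k F]

/-- the residue formula at a finite point. -/
theorem res_fin {x : F} (hx : ∀ a : k, x ≠ algebraMap k F a) {z : F} (a : k) (c : Plk k F → k)
    (h1 : ∀ b : k, b ≠ a → ∀ P : Plk k F, 0 < ord P (x - algebraMap k F b) →
      z ∈ Mge P (1 - ord P (x - algebraMap k F b)))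
    (h2 : ∀ P : Plk k F, 0 < ord P (x - algebraMap k F a) →
      (x - algebraMap k F a) * z - algebraMap k F (c P) ∈ Mge P 1) :
    Tx k x z - (∑ P ∈ zs (nc_sub hx a), (ord P (x - algebraMap k F a)).toNat • c P) • x⁻¹ ∈
      URho k x := by
  have hac : IsAlgClosed k := CFF.ac (k := k) (F := F)
  obtain ⟨hT, -⟩ := finite_of_notMem hx
  have hx0 : x ≠ 0 := by
    have := hx 0
    rwa [map_zero] at this
  have hxb : ∀ b : k, x - algebraMap k F b ≠ 0 := fun b => sub_ne_zero.2 (hx b)
  have hcomp : ∀ (b : k) (g : k[X]), aeval (x - algebraMap k F b) g =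
      aeval x (g.comp (X - C b)) := by
    intro b g
    rw [aeval_comp, map_sub, aeval_X, aeval_C]
  set s : k := ∑ P ∈ zs (nc_sub hx a), (ord P (x - algebraMap k F a)).toNat • c P with hs
  have hra : RegAt (x - algebraMap k F a) ((x - algebraMap k F a) * Tx k x z) s := by
    have h3 := trace_reg (nc_sub hx a) (u := (x - algebraMap k F a) * z) c h2
    rw [Tx_sub, Tx_sub_mul] at h3
    exact h3
  obtain ⟨q, hq⟩ := poly_of_reg (k := k) (x := x) (r := (x - algebraMap k F a) * Tx k x z) (by
    intro b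
    by_cases hb : b = a
    · subst hb
      obtain ⟨f, g, e1, e2, e3⟩ := hra
      refine ⟨f.comp (X - C b), g.comp (X - C b), ?_, ?_⟩
      · rw [eval_comp, eval_sub, eval_X, eval_C, sub_self, ← coeff_zero_eq_eval_zero]
        exact e1
      · rw [← hcomp, ← hcomp]
        exact e2
    · have h3 := trace_reg (nc_sub hx b) (u := (x - algebraMap k F b) * z) (fun _ => 0) (by
        intro P hP
        rw [map_zero, sub_zero, mul_mem_Mge_iff (hxb b)]
        exact h1 b hb P hP)
      rw [Tx_sub, Tx_sub_mul] at h3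
      obtain ⟨f, g, e1, e2, e3⟩ := h3
      simp only [smul_zero, Finset.sum_const_zero, mul_zero] at e3
      have e4 : Tx k x z * aeval (x - algebraMap k F b) g =
          aeval (x - algebraMap k F b) f.divX := by
        apply mul_left_cancel₀ (hxb b)
        rw [← mul_assoc, e2, COrd_aeval_eq (x - algebraMap k F b) f, e3, map_zero, zero_add,
          mul_comm]
      refine ⟨(X - C a) * f.divX.comp (X - C b), g.comp (X - C b), ?_, ?_⟩
      · rw [eval_comp, eval_sub, eval_X, eval_C, sub_self, ← coeff_zero_eq_eval_zero]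
        exact e1
      · rw [map_mul, ← hcomp, ← hcomp, mul_assoc, e4, map_sub, aeval_X, aeval_C])
  have hqa : q.eval a = s := by
    obtain ⟨f, g, e1, e2, e3⟩ := hra
    rw [hq, hcomp, hcomp, ← map_mul] at e2
    have e4 := congrArg (eval a) (transcendental_iff_injective.1 hT e2)
    rw [eval_mul, eval_comp, eval_comp, eval_sub, eval_X, eval_C, sub_self,
      ← coeff_zero_eq_eval_zero, ← coeff_zero_eq_eval_zero, e3, mul_comm] at e4
    exact mul_left_cancel₀ e1 e4
  obtain ⟨p, hp⟩ : (X - C a) ∣ q - C s := by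
    rw [dvd_iff_isRoot, IsRoot, eval_sub, eval_C, hqa, sub_self]
  have hp' : aeval x q = (x - algebraMap k F a) * aeval x p + algebraMap k F s := by
    have h4 := congrArg (aeval x) hp
    rw [map_sub, map_mul, map_sub, aeval_X, aeval_C, aeval_C, sub_eq_iff_eq_add] at h4
    exact h4
  refine ⟨p, C (s * a), X * (X - C a), mul_ne_zero X_ne_zero (X_sub_C_ne_zero a), Or.inr ?_, ?_⟩
  · rw [natDegree_C, natDegree_mul X_ne_zero (X_sub_C_ne_zero a), natDegree_X, natDegree_X_sub_C]
  · have h5 : Tx k x z = aeval x p + algebraMap k F s * (x - algebraMap k F a)⁻¹ := by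
      apply mul_left_cancel₀ (hxb a)
      rw [hq, hp', mul_add, mul_comm (algebraMap k F s), ← mul_assoc, mul_inv_cancel₀ (hxb a),
        one_mul]
    have h6 := hxb a
    rw [h5, map_mul, map_sub, aeval_X, aeval_C, aeval_C, map_mul, Algebra.smul_def]
    field_simp
    ring

/-- the residue formula at infinity. -/
theorem res_inf {x : F} (hx : ∀ a : k, x ≠ algebraMap k F a) {y : F} (c : Plk k F → k)
    (h : ∀ P : Plk k F, ord P x < 0 → x * y - algebraMap k F (c P) ∈ Mge P 1) :
    Tx k x y - (∑ P ∈ zs (nc_inv hx), (ord P x⁻¹).toNat • c P) • x⁻¹ ∈ URho k x := by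
  have hx0 : x ≠ 0 := by
    have := hx 0
    rwa [map_zero] at this
  set s : k := ∑ P ∈ zs (nc_inv hx), (ord P x⁻¹).toNat • c P with hs
  have h3 := trace_reg (nc_inv hx) (u := x * y) c (fun P hP => by
    rw [ord_inv] at hP
    exact h P (by omega))
  rw [Tx_inv, Tx_x_mul] at h3
  obtain ⟨f, g, e1, e2, e3⟩ := h3
  obtain ⟨f', hf1, hf2, hf3⟩ := aeval_reverse (k := k) hx0 f (max f.natDegree g.natDegree)
    (le_max_left _ _)
  obtain ⟨g', hg1, hg2, hg3⟩ := aeval_reverse (k := k) hx0 g (max f.natDegree g.natDegree)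
    (le_max_right _ _)
  set N := max f.natDegree g.natDegree with hN
  have hg0 : g' ≠ 0 := by
    rintro rfl
    rw [coeff_zero] at hg3
    exact e1 hg3.symm
  have hgN : g'.natDegree = N := by
    refine le_antisymm hg2 (le_natDegree_of_ne_zero ?_)
    rw [hg3]
    exact e1
  refine ⟨0, f' - C s * g', X * g', mul_ne_zero X_ne_zero hg0, ?_, ?_⟩
  · by_cases h0 : f' - C s * g' = 0
    · exact Or.inl h0
    right
    rw [natDegree_mul X_ne_zero hg0, natDegree_X, hgN]
    have h4 : (f' - C s * g').natDegree ≤ N := by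
      refine (natDegree_sub_le _ _).trans (max_le hf2 ?_)
      exact (natDegree_C_mul_le _ _).trans hg2
    have h5 : (f' - C s * g').coeff N = 0 := by
      rw [coeff_sub, coeff_C_mul, hf3, hg3, e3, hs]
      ring
    have h6 : (f' - C s * g').natDegree ≠ N := by
      intro h7
      apply h0
      rw [← leadingCoeff_eq_zero, leadingCoeff, h7, h5]
    omega
  · have h7 : x * Tx k x y * aeval x g' = aeval x f' := by
      rw [hg1, hf1, ← e2]; ring
    rw [map_zero, sub_zero, map_mul, aeval_X, map_sub, map_mul, aeval_C, ← h7, Algebra.smul_def]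
    field_simp

end lam

end Vale.Agent.P298.FF
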