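import Vale.Agent.P298.H272.Hur2

/-!
The divisor of the differential `dx` has finite support and degree `2 g - 2`
(characteristic zero).
-/

set_option linter.all false

namespace Vale.Agent.P298.FF

open Polynomial IntermediateField

section wd

variable {k F : Type*} [Field k] [Field F] [Algebra k F] [CFF k F]

open Classical in
/-- the order of `dx` at a place. -/
noncomputable def wd (k : Type*) {F : Type*} [Field k] [Field F] [Algebra k F] [CFF k F]
    (x : F) (P : Plk k F) : ℤ :=
  if h : ∃ a : k, 0 < ord P (x - algebraMap k F a) then ord P (x - algebraMap k F h.choose) - 1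
  else ord P x - 1

theorem val_unique {P : Plk k F} {x : F} {a b : k} (ha : 0 < ord P (x - algebraMap k F a))
    (hb : 0 < ord P (x - algebraMap k F b)) : a = b := by
  by_contra hne
  have h1 : algebraMap k F (b - a) ∈ Mge P 1 := by
    have h2 : algebraMap k F (b - a) = (x - algebraMap k F a) - (x - algebraMap k F b) := by
      rw [map_sub]; ring
    rw [h2]
    exact Submodule.sub_mem _ (Or.inr (by omega)) (Or.inr (by omega))
  rcases h1 with h1 | h1
  · rw [map_eq_zero, sub_eq_zero] at h1
    exact hne h1.symm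
  · rw [ord_const] at h1
    omega

theorem wd_fin {P : Plk k F} {x : F} {a : k} (ha : 0 < ord P (x - algebraMap k F a)) :
    wd k x P = ord P (x - algebraMap k F a) - 1 := by
  have h : ∃ a : k, 0 < ord P (x - algebraMap k F a) := ⟨a, ha⟩
  rw [wd, dif_pos h, val_unique h.choose_spec ha]

theorem ord_sub_of_neg {P : Plk k F} {x : F} (hP : ord P x < 0) (a : k) :
    ord P (x - algebraMap k F a) = ord P x := by
  have hx0 : x ≠ 0 := by rintro rfl; rw [ord_zero] at hP; exact lt_irrefl _ hP
  rw [sub_eq_add_neg]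
  refine (ord_add_of_lt hx0 (Submodule.neg_mem _ (Or.inr ?_))).2
  rw [ord_const]
  omega

theorem wd_pole {P : Plk k F} {x : F} (hP : ord P x < 0) : wd k x P = ord P x - 1 := by
  have h : ¬ ∃ a : k, 0 < ord P (x - algebraMap k F a) := by
    rintro ⟨a, ha⟩
    rw [ord_sub_of_neg hP] at ha
    omega
  rw [wd, dif_neg h]

theorem ord_sub_nonneg {P : Plk k F} {x : F} (hP : 0 ≤ ord P x) (a : k)
    (hne : x - algebraMap k F a ≠ 0) : 0 ≤ ord P (x - algebraMap k F a) := by
  have h : x - algebraMap k F a ∈ Mge P 0 :=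
    Submodule.sub_mem _ (Or.inr hP) (Or.inr (by rw [ord_const]))
  exact h.resolve_left hne

theorem exists_val {x : F} (hx : ∀ a : k, x ≠ algebraMap k F a) {P : Plk k F}
    (hP : 0 ≤ ord P x) : ∃ a : k, 0 < ord P (x - algebraMap k F a) := by
  obtain ⟨a, ha⟩ := exists_cst P ((mem_iff_ord P x).2 (Or.inr hP))
  exact ⟨a, ha.resolve_left (hx a)⟩

theorem nonneg_of_val {x : F} {P : Plk k F} {a : k} (ha : 0 < ord P (x - algebraMap k F a)) :
    0 ≤ ord P x := by
  by_contra hcon
  rw [ord_sub_of_neg (not_le.1 hcon)] at ha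
  omega

end wd

section om

variable {k F : Type*} [Field k] [Field F] [Algebra k F] [CFF k F]

/-- strong approximation at the finite places. -/
theorem sa_fin {x : F} (hx : ∀ a : k, x ≠ algebraMap k F a) (β : Plk k F →₀ F) :
    ∃ z : F, ∀ P : Plk k F, 0 ≤ ord P x → z - β P ∈ Mge P 0 := by
  obtain ⟨g, -, c, hc⟩ := exists_riem k F
  have hfd := (finite_of_notMem hx).2
  have hn : 0 < (Module.finrank k⟮x⟯ F : ℤ) := by
    exact_mod_cast Module.finrank_pos
  have hD : c ≤ dg (c.toNat • pol k x) := by
    rw [map_nsmul, dg_pol hx, nsmul_eq_mul]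
    have h1 : c ≤ (c.toNat : ℤ) := Int.self_le_toNat c
    nlinarith [Int.natCast_nonneg c.toNat]
  have h := KD_eq_top hc hD
  have hβ : β ∈ KD (c.toNat • pol k x) := by rw [h]; exact Submodule.mem_top
  obtain ⟨z, hz⟩ := hβ
  refine ⟨z, fun P hP => ?_⟩
  have h1 := hz P
  have h2 : (c.toNat • pol k x) P = 0 := by
    rw [Finsupp.smul_apply, pol_apply, max_eq_left (by omega), smul_zero]
  rw [h2, neg_zero] at h1
  have h3 := Submodule.neg_mem _ h1
  rwa [neg_sub] at h3

/-- weak approximation at the poles. -/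
theorem wa_inf {x : F} (hx : ∀ a : k, x ≠ algebraMap k F a) (β : Plk k F →₀ F) :
    ∃ y : F, ∀ P : Plk k F, ord P x < 0 → y - β P ∈ Mge P (1 - ord P x) := by
  obtain ⟨y, hy⟩ := weak_appr (zs (nc_inv hx)) (fun P => β P)
    (1 + ∑ P ∈ zs (nc_inv hx), ord P x⁻¹)
  refine ⟨y, fun P hP => ?_⟩
  have hP' : P ∈ zs (nc_inv hx) := (mem_zs (nc_inv hx)).2 (by rw [ord_inv]; omega)
  refine Mge_mono P ?_ (hy P hP')
  have h1 : ord P x⁻¹ ≤ ∑ P ∈ zs (nc_inv hx), ord P x⁻¹ :=
    Finset.single_le_sum (f := fun P => ord P x⁻¹)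
      (fun Q hQ => ((mem_zs (nc_inv hx)).1 hQ).le) hP'
  rw [ord_inv] at h1
  omega

variable {x : F} (hx : ∀ a : k, x ≠ algebraMap k F a)

/-- the functional `ρ ∘ Tr` vanishes on the functions with small poles at the finite places. -/
theorem lam_fin (hx : ∀ a : k, x ≠ algebraMap k F a) {ρ : F →ₗ[k] k}
    (hρ : ∀ r ∈ URho k x, ρ r = 0) {y : F}
    (hy : ∀ (a : k) (P : Plk k F), 0 < ord P (x - algebraMap k F a) →
      y ∈ Mge P (1 - ord P (x - algebraMap k F a))) : ρ (Tx k x y) = 0 := by
  have h := res_fin hx (z := y) (0 : k) (fun _ => 0) (fun b _ P hP => hy b P hP) (fun P hP => by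
    rw [map_zero (algebraMap k F), sub_zero _, mul_mem_Mge_iff (sub_ne_zero.2 (by
      have := hx 0; rwa [map_zero] at this))]
    have h1 := hy 0 P hP
    rwa [map_zero] at h1)
  simp only [smul_zero, Finset.sum_const_zero, zero_smul, sub_zero] at h
  exact hρ _ h

theorem lam_inf (hx : ∀ a : k, x ≠ algebraMap k F a) {ρ : F →ₗ[k] k}
    (hρ : ∀ r ∈ URho k x, ρ r = 0) {y : F}
    (hy : ∀ P : Plk k F, ord P x < 0 → y ∈ Mge P (1 - ord P x)) : ρ (Tx k x y) = 0 := by
  have h := res_inf hx (y := y) (fun _ => 0) (fun P hP => by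
    rw [map_zero, sub_zero, mul_mem_Mge_iff (by have := hx 0; rwa [map_zero] at this)]
    exact hy P hP)
  simp only [smul_zero, Finset.sum_const_zero, zero_smul, sub_zero] at h
  exact hρ _ h

/-- the Weil differential of `dx`. -/
theorem exists_om (hx : ∀ a : k, x ≠ algebraMap k F a) {ρ : F →ₗ[k] k}
    (hρ : ∀ r ∈ URho k x, ρ r = 0) :
    ∃ ω : Module.Dual k (Plk k F →₀ F), ∀ (β : Plk k F →₀ F) (z y : F),
      (∀ P : Plk k F, 0 ≤ ord P x → z - β P ∈ Mge P 0) →
      (∀ P : Plk k F, ord P x < 0 → y - β P ∈ Mge P (1 - ord P x)) →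
      ω β = ρ (Tx k x z) - ρ (Tx k x y) := by
  choose zf hzf using sa_fin hx
  choose yf hyf using wa_inf hx
  have huz : ∀ (β : Plk k F →₀ F) (z : F), (∀ P : Plk k F, 0 ≤ ord P x → z - β P ∈ Mge P 0) →
      ρ (Tx k x (zf β)) = ρ (Tx k x z) := by
    intro β z hz
    rw [← sub_eq_zero, ← map_sub, ← map_sub]
    refine lam_fin hx hρ fun a P hP => ?_
    have hP0 := nonneg_of_val hP
    have h1 : zf β - z = (zf β - β P) - (z - β P) := by ring
    rw [h1]
    exact Mge_mono P (by omega) (Submodule.sub_mem _ (hzf β P hP0) (hz P hP0))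
  have huy : ∀ (β : Plk k F →₀ F) (y : F),
      (∀ P : Plk k F, ord P x < 0 → y - β P ∈ Mge P (1 - ord P x)) →
      ρ (Tx k x (yf β)) = ρ (Tx k x y) := by
    intro β y hy
    rw [← sub_eq_zero, ← map_sub, ← map_sub]
    refine lam_inf hx hρ fun P hP => ?_
    have h1 : yf β - y = (yf β - β P) - (y - β P) := by ring
    rw [h1]
    exact Submodule.sub_mem _ (hyf β P hP) (hy P hP)
  refine ⟨{
    toFun := fun β => ρ (Tx k x (zf β)) - ρ (Tx k x (yf β))
    map_add' := ?_
    map_smul' := ?_ }, ?_⟩
  · intro β γ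
    rw [huz (β + γ) (zf β + zf γ) (fun P hP => by
        rw [Finsupp.add_apply, add_sub_add_comm]
        exact Submodule.add_mem _ (hzf β P hP) (hzf γ P hP)),
      huy (β + γ) (yf β + yf γ) (fun P hP => by
        rw [Finsupp.add_apply, add_sub_add_comm]
        exact Submodule.add_mem _ (hyf β P hP) (hyf γ P hP))]
    rw [map_add, map_add, map_add, map_add]
    ring
  · intro a β
    rw [huz (a • β) (a • zf β) (fun P hP => by
        rw [Finsupp.smul_apply, ← smul_sub]
        exact Submodule.smul_mem _ _ (hzf β P hP)),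
      huy (a • β) (a • yf β) (fun P hP => by
        rw [Finsupp.smul_apply, ← smul_sub]
        exact Submodule.smul_mem _ _ (hyf β P hP))]
    rw [map_smul, map_smul, map_smul, map_smul, RingHom.id_apply, smul_sub]
  · intro β z y hz hy
    show ρ (Tx k x (zf β)) - ρ (Tx k x (yf β)) = _
    rw [huz β z hz, huy β y hy]

/-- the divisor of `dx`, with degree `2 g - 2`. -/
theorem exists_dvdx [CharZero k] (hx : ∀ a : k, x ≠ algebraMap k F a) :
    ∃ W : Plk k F →₀ ℤ, (∀ P, W P = wd k x P) ∧ dg W = 2 * (gen k F : ℤ) - 2 := by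
  classical
  obtain ⟨hT, -⟩ := finite_of_notMem hx
  have hx0 : x ≠ 0 := by
    have := hx 0
    rwa [map_zero] at this
  obtain ⟨ρ, hρ, hρ1⟩ := exists_rho hT
  obtain ⟨ω, hω⟩ := exists_om hx hρ
  -- the functional of the adele concentrated at a finite place
  have hfin : ∀ (P : Plk k F) (a : k), 0 < ord P (x - algebraMap k F a) → ∀ t : F, t ≠ 0 →
      ord P t = -ord P (x - algebraMap k F a) → ω (Finsupp.single P t) ≠ 0 := by
    intro P a hPa t ht0 ht
    have hP0 := nonneg_of_val hPa
    have hxa : x - algebraMap k F a ≠ 0 := sub_ne_zero.2 (hx a)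
    obtain ⟨z, hz⟩ := sa_fin hx (Finsupp.single P t)
    have h1 := hω (Finsupp.single P t) z 0 hz (fun Q hQ => by
      have hne : Q ≠ P := by rintro rfl; omega
      rw [Finsupp.single_eq_of_ne hne, sub_zero]
      exact Submodule.zero_mem _)
    rw [map_zero, map_zero, sub_zero] at h1
    rw [h1]
    -- the value of `(x - a) t` at `P`
    have hu : (x - algebraMap k F a) * t ∈ Mge P 0 := Or.inr (by rw [ord_mul P hxa ht0, ht]; omega)
    have hune : (x - algebraMap k F a) * t ≠ 0 := mul_ne_zero hxa ht0
    obtain ⟨c, hc⟩ := exists_cst P ((mem_iff_ord P _).2 hu)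
    have hc1 : (x - algebraMap k F a) * t - algebraMap k F c ∈ Mge P 1 := by
      rcases hc with hc | hc
      · rw [hc, sub_self]; exact Submodule.zero_mem _
      · exact Or.inr (by omega)
    have hc0 : c ≠ 0 := by
      rintro rfl
      rw [map_zero, sub_zero] at hc1
      rcases hc1 with h | h
      · exact hune h
      · rw [ord_mul P hxa ht0, ht] at h
        omega
    have h2 := res_fin hx (z := z) a (fun Q => if Q = P then c else 0) (fun b hb Q hQ => by
      have hQ0 := nonneg_of_val hQ
      have hne : Q ≠ P := by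
        rintro rfl
        exact hb (val_unique hQ hPa)
      have h3 := hz Q hQ0
      rw [Finsupp.single_eq_of_ne hne, sub_zero] at h3
      exact Mge_mono Q (by omega) h3) (fun Q hQ => by
      have hQ0 := nonneg_of_val hQ
      have h3 := hz Q hQ0
      by_cases hne : Q = P
      · subst hne
        rw [if_pos rfl]
        rw [Finsupp.single_eq_same] at h3
        have h4 : (x - algebraMap k F a) * z - algebraMap k F c =
            (x - algebraMap k F a) * (z - t) +
              ((x - algebraMap k F a) * t - algebraMap k F c) := by ring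
        rw [h4]
        refine Submodule.add_mem _ ?_ hc1
        rw [mul_mem_Mge_iff hxa]
        exact Mge_mono Q (by omega) h3
      · rw [if_neg hne, map_zero, sub_zero, mul_mem_Mge_iff hxa]
        rw [Finsupp.single_eq_of_ne hne, sub_zero] at h3
        exact Mge_mono Q (by omega) h3)
    have h5 := hρ _ h2
    rw [map_sub, map_smul, hρ1, smul_eq_mul, mul_one, sub_eq_zero] at h5
    rw [h5, Finset.sum_eq_single P]
    · rw [if_pos rfl, nsmul_eq_mul]
      refine mul_ne_zero ?_ hc0
      rw [Nat.cast_ne_zero]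
      omega
    · intro Q _ hne
      rw [if_neg hne, smul_zero]
    · intro h
      exact absurd ((mem_zs (nc_sub hx a)).2 hPa) h
  have hinf : ∀ P : Plk k F, ord P x < 0 → ∀ t : F, t ≠ 0 →
      ord P t = -ord P x → ω (Finsupp.single P t) ≠ 0 := by
    intro P hP t ht0 ht
    obtain ⟨y, hy⟩ := wa_inf hx (Finsupp.single P t)
    have h1 := hω (Finsupp.single P t) 0 y (fun Q hQ => by
      have hne : Q ≠ P := by rintro rfl; omega
      rw [Finsupp.single_eq_of_ne hne, sub_zero]
      exact Submodule.zero_mem _) hy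
    rw [map_zero, map_zero, zero_sub] at h1
    rw [h1, neg_ne_zero]
    have hu : x * t ∈ Mge P 0 := Or.inr (by rw [ord_mul P hx0 ht0, ht]; omega)
    have hune : x * t ≠ 0 := mul_ne_zero hx0 ht0
    obtain ⟨c, hc⟩ := exists_cst P ((mem_iff_ord P _).2 hu)
    have hc1 : x * t - algebraMap k F c ∈ Mge P 1 := by
      rcases hc with hc | hc
      · rw [hc, sub_self]; exact Submodule.zero_mem _
      · exact Or.inr (by omega)
    have hc0 : c ≠ 0 := by
      rintro rfl
      rw [map_zero, sub_zero] at hc1
      rcases hc1 with h | h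
      · exact hune h
      · rw [ord_mul P hx0 ht0, ht] at h
        omega
    have h2 := res_inf hx (y := y) (fun Q => if Q = P then c else 0) (fun Q hQ => by
      have h3 := hy Q hQ
      by_cases hne : Q = P
      · subst hne
        rw [if_pos rfl]
        rw [Finsupp.single_eq_same] at h3
        have h4 : x * y - algebraMap k F c = x * (y - t) + (x * t - algebraMap k F c) := by ring
        rw [h4]
        refine Submodule.add_mem _ ?_ hc1
        rw [mul_mem_Mge_iff hx0]
        exact Mge_mono Q (by omega) h3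
      · rw [if_neg hne, map_zero, sub_zero, mul_mem_Mge_iff hx0]
        rw [Finsupp.single_eq_of_ne hne, sub_zero] at h3
        exact Mge_mono Q (by omega) h3)
    have h5 := hρ _ h2
    rw [map_sub, map_smul, hρ1, smul_eq_mul, mul_one, sub_eq_zero] at h5
    rw [h5, Finset.sum_eq_single P]
    · rw [if_pos rfl, nsmul_eq_mul]
      refine mul_ne_zero ?_ hc0
      rw [Nat.cast_ne_zero, ord_inv]
      omega
    · intro Q _ hne
      rw [if_neg hne, smul_zero]
    · intro h
      exact absurd ((mem_zs (nc_inv hx)).2 (by rw [ord_inv]; omega)) h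
  -- exactness
  have hiff : ∀ D : Plk k F →₀ ℤ, ω ∈ Om D ↔ ∀ P, D P ≤ wd k x P := by
    intro D
    constructor
    · intro hD P
      by_contra hcon
      push Not at hcon
      obtain ⟨t, ht0, ht⟩ := exists_ord_eq {P} (fun Q => -wd k x Q - 1)
      have ht' := ht P (Finset.mem_singleton_self P)
      have hmem : Finsupp.single P t ∈ KD D := by
        refine ⟨0, fun Q => ?_⟩
        rw [sub_zero]
        by_cases hne : Q = P
        · subst hne
          rw [Finsupp.single_eq_same]
          exact Or.inr (by omega)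
        · rw [Finsupp.single_eq_of_ne hne]
          exact Submodule.zero_mem _
      have h0 := (mem_Om.1 hD) _ hmem
      rcases lt_or_ge (ord P x) 0 with hP | hP
      · refine hinf P hP t ht0 ?_ h0
        rw [ht', wd_pole hP]; ring
      · obtain ⟨a, ha⟩ := exists_val hx hP
        refine hfin P a ha t ht0 ?_ h0
        rw [ht', wd_fin ha]; ring
    · intro hD
      rw [mem_Om]
      rintro β ⟨w, hw⟩
      obtain ⟨z, hz⟩ := sa_fin hx β
      obtain ⟨y, hy⟩ := wa_inf hx β
      rw [hω β z y hz hy]
      have e1 : ρ (Tx k x z) - ρ (Tx k x y) = ρ (Tx k x (z - w)) - ρ (Tx k x (y - w)) := by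
        rw [map_sub, map_sub, map_sub, map_sub]; ring
      rw [e1, lam_fin hx hρ, lam_inf hx hρ, sub_zero]
      · intro P hP
        have h1 : y - w = (y - β P) + (β P - w) := by ring
        rw [h1]
        refine Submodule.add_mem _ (hy P hP) (Mge_mono P ?_ (hw P))
        have h2 := hD P
        rw [wd_pole hP] at h2
        omega
      · intro a P hP
        have h1 : z - w = (z - β P) + (β P - w) := by ring
        rw [h1]
        refine Submodule.add_mem _ (Mge_mono P (by omega) (hz P (nonneg_of_val hP)))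
          (Mge_mono P ?_ (hw P))
        have h2 := hD P
        rw [wd_fin hP] at h2
        omega
  -- `ω` is not zero
  have hω0 : ω ≠ 0 := by
    rintro rfl
    obtain ⟨P, hP⟩ := exists_zero hx
    have hP' : 0 < ord P (x - algebraMap k F 0) := by rwa [map_zero, sub_zero]
    obtain ⟨t, ht0, ht⟩ := exists_ord_eq {P} (fun Q => -ord Q (x - algebraMap k F 0))
    exact hfin P 0 hP' t ht0 (ht P (Finset.mem_singleton_self P)) rfl
  -- there is a divisor below
  have hA : ω ∈ Om (-(2 • pol k x)) := by
    rw [hiff]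
    intro P
    rw [Finsupp.neg_apply, Finsupp.smul_apply, pol_apply]
    rcases lt_or_ge (ord P x) 0 with hP | hP
    · rw [wd_pole hP, max_eq_right (by omega)]
      simp only [smul_eq_mul, nsmul_eq_mul, Nat.cast_ofNat]
      omega
    · obtain ⟨a, ha⟩ := exists_val hx hP
      rw [wd_fin ha, max_eq_left (by omega)]
      simp only [smul_zero]
      omega
  obtain ⟨W, hW⟩ := exists_dvOm hω0 hA
  have hWle : ∀ P, W P ≤ wd k x P := (hiff W).1 ((hW W).2 le_rfl)
  have hWeq : ∀ P, W P = wd k x P := by
    intro P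
    refine le_antisymm (hWle P) ?_
    have h1 : W + Finsupp.single P (wd k x P - W P) ≤ W := by
      rw [← hW, hiff]
      intro Q
      rw [Finsupp.add_apply]
      by_cases hne : Q = P
      · subst hne
        rw [Finsupp.single_eq_same]
        omega
      · rw [Finsupp.single_eq_of_ne hne, add_zero]
        exact hWle Q
    have h2 := h1 P
    rw [Finsupp.add_apply, Finsupp.single_eq_same] at h2
    omega
  refine ⟨W, hWeq, ?_⟩
  -- the degree
  obtain ⟨g, -, c, hc⟩ := exists_riem k F
  have hg : (g : ℤ) = gen k F := gen_unique hc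
  have h1 := finrank_Om hc (0 : Plk k F →₀ ℤ)
  have h2 := finrank_Om hc W
  rw [CDual_finrank hω0 hA hW, sub_zero, l_zero, map_zero] at h1
  rw [CDual_finrank hω0 hA hW, sub_self, l_zero] at h2
  push_cast at h1 h2
  omega

end om

end Vale.Agent.P298.FF
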