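import Vale.Agent.P298.H272.Step
import Vale.Agent.P298.H471.Path3

/-!
The bridge from a ring with finitely many filtrations, residue function fields and leading
coefficient maps to the numerical step bound of a computation sequence.
-/

namespace Vale.Agent.P298.H272

open Module Vale.Agent.P298.FF

section lin

variable {k R V : Type*} [Field k] [AddCommGroup R] [Module k R] [AddCommGroup V] [Module k V]

/-- the dimension of a step: `A` is the kernel of a linear map on `B`. -/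
theorem finrank_step (A B : Submodule k R) (hAB : A ≤ B) [Module.Finite k (R ⧸ A)]
    (φ : B →ₗ[k] V) (hφ : ∀ x : B, φ x = 0 ↔ (x : R) ∈ A) :
    finrank k (R ⧸ A) = finrank k (R ⧸ B) + finrank k (LinearMap.range φ) := by
  let ψ : (R ⧸ A) →ₗ[k] (R ⧸ B) := A.mapQ B LinearMap.id hAB
  have hψ : Function.Surjective ψ := by
    intro y
    obtain ⟨x, rfl⟩ := Submodule.mkQ_surjective B y
    exact ⟨A.mkQ x, by simp [ψ]⟩
  let Φ : B →ₗ[k] (R ⧸ A) := A.mkQ ∘ₗ B.subtype
  have hr : LinearMap.range Φ = LinearMap.ker ψ := by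
    ext y
    constructor
    · rintro ⟨x, rfl⟩
      rw [LinearMap.mem_ker]
      have h1 : ψ (Φ x) = B.mkQ x := by simp [ψ, Φ]
      rw [h1, Submodule.mkQ_apply, Submodule.Quotient.mk_eq_zero]
      exact x.2
    · intro hy
      obtain ⟨x, rfl⟩ := Submodule.mkQ_surjective A y
      rw [LinearMap.mem_ker] at hy
      have h1 : ψ (A.mkQ x) = B.mkQ x := by simp [ψ]
      rw [h1, Submodule.mkQ_apply, Submodule.Quotient.mk_eq_zero] at hy
      exact ⟨⟨x, hy⟩, rfl⟩
  have hk : LinearMap.ker Φ = LinearMap.ker φ := by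
    ext x
    rw [LinearMap.mem_ker, LinearMap.mem_ker, hφ]
    show A.mkQ x = 0 ↔ _
    rw [Submodule.mkQ_apply, Submodule.Quotient.mk_eq_zero]
  have h1 := LinearMap.finrank_range_add_finrank_ker ψ
  rw [LinearMap.range_eq_top.2 hψ, finrank_top, ← hr] at h1
  have h2 : finrank k (LinearMap.range Φ) = finrank k (LinearMap.range φ) := by
    rw [← (LinearMap.quotKerEquivRange Φ).finrank_eq, ← (LinearMap.quotKerEquivRange φ).finrank_eq,
      hk]
  rw [← h1, h2]

end lin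

/-- a ring with finitely many filtrations, residue function fields, leading coefficient maps
and bounding divisors. -/
structure LcModel (R : Type*) [CommRing R] [Algebra ℂ R] (I : Type*) [Fintype I]
    [DecidableEq I] where
  /-- the residue fields. -/
  κ : I → Type
  [fld : ∀ i, Field (κ i)]
  [alg : ∀ i, Algebra ℂ (κ i)]
  [cff : ∀ i, CFF ℂ (κ i)]
  /-- the filtrations. -/
  fil : I → ℤ → Ideal R
  anti : ∀ i {d e : ℤ}, d ≤ e → fil i e ≤ fil i d
  zero : ∀ i, fil i 0 = ⊤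
  mul_mem : ∀ i {d e : ℤ} {g h : R}, g ∈ fil i d → h ∈ fil i e → g * h ∈ fil i (d + e)
  /-- the leading coefficients. -/
  lc : ∀ i, ℤ → R → κ i
  lc_add : ∀ i {d : ℤ} {g h : R}, g ∈ fil i d → h ∈ fil i d → lc i d (g + h) = lc i d g + lc i d h
  lc_smul : ∀ i {d : ℤ} (c : ℂ) {h : R}, h ∈ fil i d → lc i d (c • h) = c • lc i d h
  lc_eq_zero : ∀ i {d : ℤ} {h : R}, h ∈ fil i d → (lc i d h = 0 ↔ h ∈ fil i (d + 1))
  lc_mul : ∀ i {d e : ℤ} {g h : R}, g ∈ fil i d → h ∈ fil i e →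
    lc i (d + e) (g * h) = lc i d g * lc i e h
  /-- the bounding divisors. -/
  Δ : (I → ℤ) → ∀ i, Plk ℂ (κ i) →₀ ℤ
  lc_mem : ∀ (D : I → ℤ) (i : I) {h : R}, (∀ j, h ∈ fil j (D j)) → lc i (D i) h ∈ LL ℂ (Δ D i)
  fin : ∀ D : I → ℤ, Module.Finite ℂ (R ⧸ ⨅ i, fil i (D i))

attribute [instance] LcModel.fld LcModel.alg LcModel.cff

namespace LcModel

variable {R : Type*} [CommRing R] [Algebra ℂ R] {I : Type*} [Fintype I] [DecidableEq I]
  (G : LcModel R I)

/-- the ideal of the functions with orders at least `D`. -/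
def b (D : I → ℤ) : Ideal R := ⨅ i, G.fil i (D i)

theorem mem_b {D : I → ℤ} {h : R} : h ∈ G.b D ↔ ∀ i, h ∈ G.fil i (D i) := by
  rw [b, Submodule.mem_iInf]

instance finite_b (D : I → ℤ) : Module.Finite ℂ (R ⧸ G.b D) := G.fin D

/-- the colength. -/
noncomputable def c (D : I → ℤ) : ℤ := finrank ℂ (R ⧸ G.b D)

/-- the degree of the bounding divisor. -/
noncomputable def deg (D : I → ℤ) (i : I) : ℤ := dg (G.Δ D i)

/-- the genera. -/
noncomputable def gg (i : I) : ℤ := gen ℂ (G.κ i)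

theorem b_anti {D E : I → ℤ} (h : ∀ i, D i ≤ E i) : G.b E ≤ G.b D := by
  intro x hx
  rw [mem_b] at hx ⊢
  exact fun i => G.anti i (h i) (hx i)

theorem b_mul {D E : I → ℤ} {g h : R} (hg : g ∈ G.b D) (hh : h ∈ G.b E) :
    g * h ∈ G.b (D + E) := by
  rw [mem_b] at hg hh ⊢
  exact fun i => G.mul_mem i (hg i) (hh i)

theorem b_pow {D : I → ℤ} {g : R} (hg : g ∈ G.b D) (n : ℕ) : g ^ n ∈ G.b (n • D) := by
  induction n with
  | zero =>
    rw [pow_zero, zero_smul, mem_b]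
    intro i
    rw [Pi.zero_apply, G.zero]
    exact Submodule.mem_top
  | succ n ih =>
    rw [pow_succ, succ_nsmul]
    exact G.b_mul ih hg

omit [Fintype I] in
theorem ee_self (j : I) : H471.ee j j = 1 := by simp [H471.ee]

omit [Fintype I] in
theorem ee_ne {j l : I} (h : l ≠ j) : H471.ee j l = 0 := by simp [H471.ee, h]

theorem mem_b_step {D : I → ℤ} {j : I} {h : R} (hh : h ∈ G.b D) :
    h ∈ G.b (D + H471.ee j) ↔ h ∈ G.fil j (D j + 1) := by
  rw [mem_b] at hh ⊢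
  constructor
  · intro h1
    have := h1 j
    rwa [Pi.add_apply, ee_self] at this
  · intro h1 i
    rw [Pi.add_apply]
    by_cases hi : i = j
    · subst hi
      rwa [ee_self]
    · rw [ee_ne hi, add_zero]
      exact hh i

/-- the leading coefficient map of a step. -/
noncomputable def lcm (D : I → ℤ) (j : I) : (G.b D).restrictScalars ℂ →ₗ[ℂ] G.κ j where
  toFun h := G.lc j (D j) h
  map_add' g h := G.lc_add j (G.mem_b.1 g.2 j) (G.mem_b.1 h.2 j)
  map_smul' c h := G.lc_smul j c (G.mem_b.1 h.2 j)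

theorem lcm_apply (D : I → ℤ) (j : I) (h : (G.b D).restrictScalars ℂ) :
    G.lcm D j h = G.lc j (D j) h := rfl

theorem lcm_eq_zero {D : I → ℤ} {j : I} (h : (G.b D).restrictScalars ℂ) :
    G.lcm D j h = 0 ↔ (h : R) ∈ (G.b (D + H471.ee j)).restrictScalars ℂ := by
  rw [lcm_apply, G.lc_eq_zero j (G.mem_b.1 h.2 j)]
  exact (G.mem_b_step h.2).symm

theorem range_lcm_le (D : I → ℤ) (j : I) : LinearMap.range (G.lcm D j) ≤ LL ℂ (G.Δ D j) := by
  rintro _ ⟨h, rfl⟩
  exact G.lc_mem D j (G.mem_b.1 h.2)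

theorem c_eq (D : I → ℤ) : G.c D = finrank ℂ (R ⧸ (G.b D).restrictScalars ℂ) := by
  rw [c, (Submodule.Quotient.restrictScalarsEquiv ℂ (G.b D)).finrank_eq]

theorem c_step (D : I → ℤ) (j : I) :
    G.c (D + H471.ee j) - G.c D = finrank ℂ (LinearMap.range (G.lcm D j)) := by
  have hfin : Module.Finite ℂ (R ⧸ (G.b (D + H471.ee j)).restrictScalars ℂ) :=
    Module.Finite.equiv (Submodule.Quotient.restrictScalarsEquiv ℂ (G.b (D + H471.ee j))).symm
  have h := finrank_step ((G.b (D + H471.ee j)).restrictScalars ℂ)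
    ((G.b D).restrictScalars ℂ) (by
      intro x hx
      refine G.b_anti (fun i => ?_) hx
      rw [Pi.add_apply, H471.ee]
      split_ifs <;> omega) (G.lcm D j) (fun x => G.lcm_eq_zero x)
  rw [c_eq, c_eq, h]
  push_cast
  ring

theorem gg_nonneg (j : I) : 0 ≤ G.gg j := Int.natCast_nonneg _

/-- the step bound. -/
theorem stepBound : H471.StepBound G.gg G.deg G.c := by
  intro D j h
  rw [c_step]
  exact (step_le (D := G.Δ D j) le_rfl h (LinearMap.range (G.lcm D j)) (fun z hz hz0 => by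
    exact (mem_LL.1 (G.range_lcm_le D j hz)).resolve_left hz0)).2

/-- an exact step is onto. -/
theorem range_eq {D : I → ℤ} {j : I} (h : 2 * G.gg j - 2 < G.deg D j)
    (he : G.deg D j + 1 - G.gg j ≤ G.c (D + H471.ee j) - G.c D) :
    LinearMap.range (G.lcm D j) = LL ℂ (G.Δ D j) := by
  rw [c_step] at he
  exact step_eq h _ (fun z hz hz0 => (mem_LL.1 (G.range_lcm_le D j hz)).resolve_left hz0) he

theorem exists_lc {D : I → ℤ} {j : I} (h : 2 * G.gg j - 2 < G.deg D j)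
    (he : G.deg D j + 1 - G.gg j ≤ G.c (D + H471.ee j) - G.c D) {z : G.κ j}
    (hz : z ∈ LL ℂ (G.Δ D j)) : ∃ g ∈ G.b D, G.lc j (D j) g = z := by
  rw [← G.range_eq h he] at hz
  obtain ⟨g, hg⟩ := hz
  exact ⟨g, g.2, hg⟩

/-- exact orders at finitely many places. -/
theorem exists_exact {D : I → ℤ} {j : I} (h : 2 * G.gg j ≤ G.deg D j)
    (he : G.deg D j + 1 - G.gg j ≤ G.c (D + H471.ee j) - G.c D)
    (S : Finset (Plk ℂ (G.κ j))) :
    ∃ g ∈ G.b D, g ∉ G.fil j (D j + 1) ∧ G.lc j (D j) g ≠ 0 ∧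
      (∀ P, -G.Δ D j P ≤ ord P (G.lc j (D j) g)) ∧
      ∀ P ∈ S, ord P (G.lc j (D j) g) = -G.Δ D j P := by
  obtain ⟨z, hz0, hz, hzS⟩ := FF.exists_exact (D := G.Δ D j) h S
  obtain ⟨g, hg, rfl⟩ := G.exists_lc (by omega) he (z := z) (Or.inr hz)
  refine ⟨g, hg, ?_, hz0, hz, hzS⟩
  rwa [← G.lc_eq_zero j (G.mem_b.1 hg j)]

/-- a step which is not trivial. -/
theorem exists_of_pos {D : I → ℤ} {j : I} (h : 1 ≤ G.c (D + H471.ee j) - G.c D) :
    ∃ g ∈ G.b D, g ∉ G.fil j (D j + 1) ∧ G.lc j (D j) g ≠ 0 := by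
  rw [c_step] at h
  have h1 : LinearMap.range (G.lcm D j) ≠ ⊥ := by
    intro h0
    rw [h0, finrank_bot] at h
    simp at h
  obtain ⟨z, ⟨g, rfl⟩, hz0⟩ := Submodule.exists_mem_ne_zero_of_ne_bot h1
  refine ⟨g, g.2, ?_, hz0⟩
  rwa [← G.lc_eq_zero j (G.mem_b.1 g.2 j)]

/-- in degree zero a nonzero leading coefficient has exact order at all places. -/
theorem exact_of_deg_zero {D : I → ℤ} {j : I} (h : G.deg D j ≤ 0) {g : R} (hg : g ∈ G.b D)
    (hg0 : g ∉ G.fil j (D j + 1)) (P : Plk ℂ (G.κ j)) :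
    ord P (G.lc j (D j) g) = -G.Δ D j P := by
  have h0 : G.lc j (D j) g ≠ 0 := by
    rw [Ne, G.lc_eq_zero j (G.mem_b.1 hg j)]
    exact hg0
  exact ord_eq_of_dg_zero h h0 ((mem_LL.1 (G.lc_mem D j (G.mem_b.1 hg))).resolve_left h0) P

/-- the degree is nonnegative if there is a function with exact order. -/
theorem deg_nonneg_of_mem {D : I → ℤ} {j : I} {g : R} (hg : g ∈ G.b D)
    (hg0 : g ∉ G.fil j (D j + 1)) : 0 ≤ G.deg D j := by
  have h0 : G.lc j (D j) g ≠ 0 := by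
    rw [Ne, G.lc_eq_zero j (G.mem_b.1 hg j)]
    exact hg0
  have h1 := sum_extra_le h0 ((mem_LL.1 (G.lc_mem D j (G.mem_b.1 hg))).resolve_left h0) ∅
  rwa [Finset.sum_empty] at h1

/-- the number of further zeros is at most the degree. -/
theorem sum_extra {D : I → ℤ} {j : I} {g : R} (hg : g ∈ G.b D)
    (hg0 : g ∉ G.fil j (D j + 1)) (S : Finset (Plk ℂ (G.κ j))) :
    ∑ P ∈ S, (ord P (G.lc j (D j) g) + G.Δ D j P) ≤ G.deg D j := by
  have h0 : G.lc j (D j) g ≠ 0 := by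
    rw [Ne, G.lc_eq_zero j (G.mem_b.1 hg j)]
    exact hg0
  exact sum_extra_le h0 ((mem_LL.1 (G.lc_mem D j (G.mem_b.1 hg))).resolve_left h0) S

end LcModel

end Vale.Agent.P298.H272
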