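import Vale.Agent.P298.H272.Hur3

/-!
Riemann-Roch in the form needed for the steps of a computation sequence.
-/

set_option linter.all false

namespace Vale.Agent.P298.FF

open IntermediateField

section stp

variable {k F : Type*} [Field k] [Field F] [Algebra k F] [CFF k F]

theorem dg_can : dg (can k F) = 2 * (gen k F : ℤ) - 2 := by
  have h1 := RR (0 : Plk k F →₀ ℤ)
  have h2 := RR (can k F)
  rw [l_zero, sub_zero, map_zero] at h1
  rw [sub_self, l_zero] at h2
  push_cast at h1 h2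
  linarith

/-- the dimension in degree larger than `2 g - 2`. -/
theorem l_eq {D : Plk k F →₀ ℤ} (h : 2 * (gen k F : ℤ) - 2 < dg D) :
    (Module.finrank k (LL k D) : ℤ) = dg D + 1 - gen k F :=
  RR_large (by rw [dg_can]; exact h)

/-- the upper bound, with an upper bound of the degree. -/
theorem l_le {D : Plk k F →₀ ℤ} {N : ℤ} (hD : dg D ≤ N) (hN : 2 * (gen k F : ℤ) - 2 < N) :
    (Module.finrank k (LL k D) : ℤ) ≤ N + 1 - gen k F := by
  obtain ⟨P⟩ := nonempty_Plk k F
  have h1 : dg (D + Finsupp.single P (N - dg D)) = N := by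
    rw [map_add, dg_sgl]; ring
  have h2 := l_eq (D := D + Finsupp.single P (N - dg D)) (by rw [h1]; exact hN)
  rw [h1] at h2
  rw [← h2]
  exact_mod_cast l_mono (show D ≤ D + Finsupp.single P (N - dg D) from
    le_add_of_nonneg_right (Finsupp.single_nonneg.2 (by omega)))

/-- (S1) subspaces of functions with bounded poles. -/
theorem step_le {D : Plk k F →₀ ℤ} {N : ℤ} (hD : dg D ≤ N) (hN : 2 * (gen k F : ℤ) - 2 < N)
    (V : Submodule k F) (hV : ∀ z ∈ V, z ≠ 0 → ∀ P, -D P ≤ ord P z) :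
    FiniteDimensional k V ∧ (Module.finrank k V : ℤ) ≤ N + 1 - gen k F := by
  have hle : V ≤ LL k D := fun z hz => by
    by_cases h0 : z = 0
    · exact Or.inl h0
    · exact Or.inr (hV z hz h0)
  have hf : FiniteDimensional k V := Submodule.finiteDimensional_of_le hle
  exact ⟨hf, le_trans (by exact_mod_cast Submodule.finrank_mono hle) (l_le hD hN)⟩

/-- (S2) equality in the step. -/
theorem step_eq {D : Plk k F →₀ ℤ} (hN : 2 * (gen k F : ℤ) - 2 < dg D)
    (V : Submodule k F) (hV : ∀ z ∈ V, z ≠ 0 → ∀ P, -D P ≤ ord P z)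
    (h : dg D + 1 - gen k F ≤ (Module.finrank k V : ℤ)) : V = LL k D := by
  have hle : V ≤ LL k D := fun z hz => by
    by_cases h0 : z = 0
    · exact Or.inl h0
    · exact Or.inr (hV z hz h0)
  refine Submodule.eq_of_le_of_finrank_le hle ?_
  have h1 := l_eq hN
  have h2 : (Module.finrank k (LL k D) : ℤ) ≤ Module.finrank k V := by rw [h1]; exact h
  exact_mod_cast h2

/-- (S3) sections with exact orders at finitely many places. -/
theorem exists_exact {D : Plk k F →₀ ℤ} (h : 2 * (gen k F : ℤ) ≤ dg D) (S : Finset (Plk k F)) :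
    ∃ z : F, z ≠ 0 ∧ (∀ Q, -D Q ≤ ord Q z) ∧ ∀ P ∈ S, ord P z = -D P := by
  classical
  have hac : IsAlgClosed k := CFF.ac (k := k) (F := F)
  have hinf : Infinite k := IsAlgClosed.instInfinite
  have hfr : (Module.finrank k (LL k D) : ℤ) = dg D + 1 - gen k F := l_eq (by omega)
  obtain ⟨P₀⟩ := nonempty_Plk k F
  set T := insert P₀ S with hT
  let W : T → Submodule k (LL k D) := fun P =>
    (LL k (D - Finsupp.single P.1 1)).comap (LL k D).subtype
  have hW : ∀ P, W P ≠ ⊤ := by
    intro P h1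
    have h2 : LL k D ≤ LL k (D - Finsupp.single P.1 1) := by
      intro z hz
      have h3 : (⟨z, hz⟩ : LL k D) ∈ W P := by rw [h1]; exact Submodule.mem_top
      exact h3
    have h4 : dg (D - Finsupp.single P.1 1) = dg D - 1 := by rw [map_sub, dg_sgl]
    have h5 : (Module.finrank k (LL k (D - Finsupp.single P.1 1)) : ℤ) =
        dg (D - Finsupp.single P.1 1) + 1 - gen k F := l_eq (by omega)
    have h6 := Submodule.finrank_mono h2
    omega
  have h1 : (⋃ P, (W P : Set (LL k D))) ≠ Set.univ := by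
    intro h1
    obtain ⟨P, hP⟩ := Subspace.exists_eq_top_of_iUnion_eq_univ h1
    exact hW P hP
  rw [Set.ne_univ_iff_exists_notMem] at h1
  obtain ⟨⟨z, hz⟩, hzW⟩ := h1
  rw [Set.mem_iUnion, not_exists] at hzW
  have hz2 : ∀ P ∈ T, z ∉ LL k (D - Finsupp.single P 1) := fun P hP h => hzW ⟨P, hP⟩ h
  have hz0 : z ≠ 0 := by
    rintro rfl
    exact hz2 P₀ (Finset.mem_insert_self _ _) (Submodule.zero_mem _)
  have hz3 := hz.resolve_left hz0
  refine ⟨z, hz0, hz3, fun P hP => ?_⟩
  by_contra hne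
  refine hz2 P (Finset.mem_insert_of_mem hP) (Or.inr fun Q => ?_)
  rw [Finsupp.sub_apply]
  by_cases hQ : Q = P
  · subst hQ
    rw [Finsupp.single_eq_same]
    have := hz3 Q
    omega
  · rw [Finsupp.single_eq_of_ne hQ, sub_zero]
    exact hz3 Q

/-- a nonzero section in degree at least `g`. -/
theorem exists_section {D : Plk k F →₀ ℤ} (h : 2 * (gen k F : ℤ) - 2 < dg D) (h0 : 0 ≤ dg D) :
    ∃ z : F, z ≠ 0 ∧ ∀ Q, -D Q ≤ ord Q z := by
  have h1 := l_eq h
  have h2 : 0 < Module.finrank k (LL k D) := by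
    have h3 : (0 : ℤ) < Module.finrank k (LL k D) := by
      rw [h1]
      omega
    exact_mod_cast h3
  obtain ⟨z, hz, hz0⟩ := Submodule.exists_mem_ne_zero_of_ne_bot (p := LL k D) (by
    intro hb
    rw [hb, finrank_bot] at h2
    exact lt_irrefl _ h2)
  exact ⟨z, hz0, hz.resolve_left hz0⟩

/-- (S4) in degree zero a section has no further zeros. -/
theorem ord_eq_of_dg_zero {D : Plk k F →₀ ℤ} (h : dg D ≤ 0) {z : F} (hz0 : z ≠ 0)
    (hz : ∀ Q, -D Q ≤ ord Q z) (P : Plk k F) : ord P z = -D P := by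
  have h1 : -D ≤ dv k z := fun Q => by
    rw [dv_apply, Finsupp.neg_apply]
    exact hz Q
  have h2 := eq_of_le_of_dg_le h1 (by rw [dg_dv, map_neg]; omega)
  rw [← dv_apply, ← h2, Finsupp.neg_apply]

/-- (S5) the number of further zeros of a section, counted at finitely many places. -/
theorem sum_extra_le {D : Plk k F →₀ ℤ} {z : F} (hz0 : z ≠ 0) (hz : ∀ Q, -D Q ≤ ord Q z)
    (S : Finset (Plk k F)) : ∑ P ∈ S, (ord P z + D P) ≤ dg D := by
  classical
  have h1 : 0 ≤ D + dv k z := fun Q => by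
    rw [Finsupp.add_apply, dv_apply]
    have := hz Q
    simp only [Finsupp.coe_zero, Pi.zero_apply]
    omega
  have h2 : dg (D + dv k z) = dg D := by rw [map_add, dg_dv, add_zero]
  have h3 : dg (D + dv k z) = ∑ P ∈ (S ∪ (D + dv k z).support), (D + dv k z) P :=
    dg_eq_sum fun P hP => by
      rw [Finset.mem_union, not_or] at hP
      exact Finsupp.notMem_support_iff.1 hP.2
  rw [← h2, h3]
  refine le_trans (le_of_eq (Finset.sum_congr rfl fun P _ => ?_))
    (Finset.sum_le_sum_of_subset_of_nonneg Finset.subset_union_left fun P _ _ => h1 P)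
  rw [Finsupp.add_apply, dv_apply]; ring

/-- (S6) the divisor of the differential `z dx` has degree `2 g - 2`. -/
theorem exists_dvzdx [CharZero k] {x z : F} (hx : ∀ a : k, x ≠ algebraMap k F a) (hz : z ≠ 0) :
    ∃ W : Plk k F →₀ ℤ, (∀ P, W P = ord P z + wd k x P) ∧ dg W = 2 * (gen k F : ℤ) - 2 := by
  obtain ⟨W, hW, hd⟩ := exists_dvdx hx
  refine ⟨W + dv k z, fun P => ?_, ?_⟩
  · rw [Finsupp.add_apply, dv_apply, hW]; ring
  · rw [map_add, dg_dv, add_zero, hd]

/-- (S7) the same as a finite sum. -/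
theorem sum_dvzdx [CharZero k] {x z : F} (hx : ∀ a : k, x ≠ algebraMap k F a) (hz : z ≠ 0)
    {S : Finset (Plk k F)} (hS : ∀ P, P ∉ S → ord P z + wd k x P = 0) :
    ∑ P ∈ S, (ord P z + wd k x P) = 2 * (gen k F : ℤ) - 2 := by
  obtain ⟨W, hW, hd⟩ := exists_dvzdx hx hz
  rw [← hd, dg_eq_sum (S := S) fun P hP => by rw [hW]; exact hS P hP]
  exact Finset.sum_congr rfl fun P _ => (hW P).symm

end stp

end Vale.Agent.P298.FF
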